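import Mathlib
/-!
# Row 163, q = 3, large degree: exact algebra of the pair `(x, y)`

All identities are polynomial identities on `x0 + x1 + x2 = 1`, `y0 + y1 + y2 = 1`.
-/
namespace Crest.Agent.Lib.Bc.LargeD

/-- `a = |z|²` -/
noncomputable def aR (x0 x1 x2 : ℝ) : ℝ := (3 * (x0 ^ 2 + x1 ^ 2 + x2 ^ 2) - 1) / 2
/-- `V = 27 x0 x1 x2` -/
noncomputable def vR (x0 x1 x2 : ℝ) : ℝ := 27 * x0 * x1 * x2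
/-- `c = Re z³` -/
noncomputable def cR (x0 x1 x2 : ℝ) : ℝ := (vR x0 x1 x2 - 1 + 3 * aR x0 x1 x2) / 2
/-- the Vandermonde product -/
noncomputable def dR (x0 x1 x2 : ℝ) : ℝ := (x0 - x1) * (x1 - x2) * (x2 - x0)
/-- `Z = 3 ∑ x_i y_i` -/
noncomputable def zR (x0 x1 x2 y0 y1 y2 : ℝ) : ℝ := 3 * (x0 * y0 + x1 * y1 + x2 * y2)
/-- `ν = 27 ∑_{i<j} x_i x_j y_i y_j`, so that `Z a(x★y) = Z - ν / Z` -/
noncomputable def nuR (x0 x1 x2 y0 y1 y2 : ℝ) : ℝ :=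
  27 * (x0 * x1 * y0 * y1 + x0 * x2 * y0 * y2 + x1 * x2 * y1 * y2)
/-- the numerator -/
noncomputable def numR (a c a' c' : ℝ) : ℝ :=
  (a + a' + a * a' - 1) * (1 - a * a') - 2 * a' * c - 2 * a * c' + 2 * a ^ 2 * c' + 2 * a' ^ 2 * c

section
variable {x0 x1 x2 y0 y1 y2 : ℝ}

lemma sum_rot1 (hx : x0 + x1 + x2 = 1) (hy : y0 + y1 + y2 = 1) :
    zR x0 x1 x2 y0 y1 y2 + zR x0 x1 x2 y1 y2 y0 + zR x0 x1 x2 y2 y0 y1 = 3 := by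
  obtain rfl : x2 = 1 - x0 - x1 := by linarith
  obtain rfl : y2 = 1 - y0 - y1 := by linarith
  unfold zR; ring

lemma sum_rot2 (hx : x0 + x1 + x2 = 1) (hy : y0 + y1 + y2 = 1) :
    zR x0 x1 x2 y0 y2 y1 + zR x0 x1 x2 y2 y1 y0 + zR x0 x1 x2 y1 y0 y2 = 3 := by
  obtain rfl : x2 = 1 - x0 - x1 := by linarith
  obtain rfl : y2 = 1 - y0 - y1 := by linarith
  unfold zR; ring

lemma pow2_sum (hx : x0 + x1 + x2 = 1) (hy : y0 + y1 + y2 = 1) :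
    (zR x0 x1 x2 y0 y1 y2 - 1) ^ 2 + (zR x0 x1 x2 y1 y2 y0 - 1) ^ 2 + (zR x0 x1 x2 y2 y0 y1 - 1) ^ 2
      + (zR x0 x1 x2 y0 y2 y1 - 1) ^ 2 + (zR x0 x1 x2 y2 y1 y0 - 1) ^ 2 + (zR x0 x1 x2 y1 y0 y2 - 1) ^ 2
      = 12 * (aR x0 x1 x2 * aR y0 y1 y2) := by
  obtain rfl : x2 = 1 - x0 - x1 := by linarith
  obtain rfl : y2 = 1 - y0 - y1 := by linarith
  unfold zR aR; ring

lemma pow3_sum (hx : x0 + x1 + x2 = 1) (hy : y0 + y1 + y2 = 1) :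
    (zR x0 x1 x2 y0 y1 y2 - 1) ^ 3 + (zR x0 x1 x2 y1 y2 y0 - 1) ^ 3 + (zR x0 x1 x2 y2 y0 y1 - 1) ^ 3
      + (zR x0 x1 x2 y0 y2 y1 - 1) ^ 3 + (zR x0 x1 x2 y2 y1 y0 - 1) ^ 3 + (zR x0 x1 x2 y1 y0 y2 - 1) ^ 3
      = 12 * (cR x0 x1 x2 * cR y0 y1 y2) := by
  obtain rfl : x2 = 1 - x0 - x1 := by linarith
  obtain rfl : y2 = 1 - y0 - y1 := by linarith
  unfold zR cR vR aR; ring

lemma pow4_sum (hx : x0 + x1 + x2 = 1) (hy : y0 + y1 + y2 = 1) :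
    (zR x0 x1 x2 y0 y1 y2 - 1) ^ 4 + (zR x0 x1 x2 y1 y2 y0 - 1) ^ 4 + (zR x0 x1 x2 y2 y0 y1 - 1) ^ 4
      + (zR x0 x1 x2 y0 y2 y1 - 1) ^ 4 + (zR x0 x1 x2 y2 y1 y0 - 1) ^ 4 + (zR x0 x1 x2 y1 y0 y2 - 1) ^ 4
      = 36 * (aR x0 x1 x2 * aR y0 y1 y2) ^ 2 := by
  obtain rfl : x2 = 1 - x0 - x1 := by linarith
  obtain rfl : y2 = 1 - y0 - y1 := by linarith
  unfold zR aR; ring

lemma prod_add (hx : x0 + x1 + x2 = 1) (hy : y0 + y1 + y2 = 1) :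
    zR x0 x1 x2 y0 y1 y2 * zR x0 x1 x2 y1 y2 y0 * zR x0 x1 x2 y2 y0 y1
      + zR x0 x1 x2 y0 y2 y1 * zR x0 x1 x2 y2 y1 y0 * zR x0 x1 x2 y1 y0 y2
      = 2 * (1 - 3 * (aR x0 x1 x2 * aR y0 y1 y2) + 2 * (cR x0 x1 x2 * cR y0 y1 y2)) := by
  obtain rfl : x2 = 1 - x0 - x1 := by linarith
  obtain rfl : y2 = 1 - y0 - y1 := by linarith
  unfold zR cR vR aR; ring

lemma prod_sub (hx : x0 + x1 + x2 = 1) (hy : y0 + y1 + y2 = 1) :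
    zR x0 x1 x2 y0 y1 y2 * zR x0 x1 x2 y1 y2 y0 * zR x0 x1 x2 y2 y0 y1
      - zR x0 x1 x2 y0 y2 y1 * zR x0 x1 x2 y2 y1 y0 * zR x0 x1 x2 y1 y0 y2
      = 27 * (dR x0 x1 x2 * dR y0 y1 y2) := by
  obtain rfl : x2 = 1 - x0 - x1 := by linarith
  obtain rfl : y2 = 1 - y0 - y1 := by linarith
  unfold zR dR; ring

lemma cube_sub_sq (hx : x0 + x1 + x2 = 1) :
    aR x0 x1 x2 ^ 3 - cR x0 x1 x2 ^ 2 = 27 / 4 * dR x0 x1 x2 ^ 2 := by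
  obtain rfl : x2 = 1 - x0 - x1 := by linarith
  unfold cR vR aR dR; ring

lemma nu_rot1 (hx : x0 + x1 + x2 = 1) (hy : y0 + y1 + y2 = 1) :
    nuR x0 x1 x2 y0 y1 y2 * (zR x0 x1 x2 y1 y2 y0 * zR x0 x1 x2 y2 y0 y1)
      + nuR x0 x1 x2 y1 y2 y0 * (zR x0 x1 x2 y2 y0 y1 * zR x0 x1 x2 y0 y1 y2)
      + nuR x0 x1 x2 y2 y0 y1 * (zR x0 x1 x2 y0 y1 y2 * zR x0 x1 x2 y1 y2 y0)
      = -3 * numR (aR x0 x1 x2) (cR x0 x1 x2) (aR y0 y1 y2) (cR y0 y1 y2) := by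
  obtain rfl : x2 = 1 - x0 - x1 := by linarith
  obtain rfl : y2 = 1 - y0 - y1 := by linarith
  unfold nuR zR numR cR vR aR; ring

lemma nu_rot2 (hx : x0 + x1 + x2 = 1) (hy : y0 + y1 + y2 = 1) :
    nuR x0 x1 x2 y0 y2 y1 * (zR x0 x1 x2 y2 y1 y0 * zR x0 x1 x2 y1 y0 y2)
      + nuR x0 x1 x2 y2 y1 y0 * (zR x0 x1 x2 y1 y0 y2 * zR x0 x1 x2 y0 y2 y1)
      + nuR x0 x1 x2 y1 y0 y2 * (zR x0 x1 x2 y0 y2 y1 * zR x0 x1 x2 y2 y1 y0)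
      = -3 * numR (aR x0 x1 x2) (cR x0 x1 x2) (aR y0 y1 y2) (cR y0 y1 y2) := by
  obtain rfl : x2 = 1 - x0 - x1 := by linarith
  obtain rfl : y2 = 1 - y0 - y1 := by linarith
  unfold nuR zR numR cR vR aR; ring

end

end Crest.Agent.Lib.Bc.LargeD
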