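import Crest.Agent.Lib.Bc.LargeD.Pair
import Crest.Agent.Lib.Bc.Abstract
import Crest.Agent.Lib.Bc.Leaf
import Crest.Agent.Lib.Bc.Gw
import Crest.Agent.Lib.Bc.Models
/-!
# Row 163, q = 3, large degree: from the pair inequalities to non-reconstruction

For `-3/16 ≤ lam < 0`, with `b lam² ≤ 1` or `d lam² ≤ 1`, no class and no structure of the law are needed:
along the partial products `K^c`, `K = T_lam M`, with `t = s(K)`,
`h_{c+1} ≥ h_c + t (1/200 - 5 h_c)` for `h = Φ ψ`, and `f_{c+1} ≤ f_c + t (1 - h_c)` for `f = Φ a`,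
so `f_c ≤ c t - t²/200` for `c ≥ 2`.
-/
open scoped BigOperators
open Crest.ProbabilityR.Broadcast
namespace Crest.Agent.Lib.Bc.LargeD

/-- `ψ` on the simplex -/
noncomputable def psiF (x : Fin 3 → ℝ) : ℝ := psiP (aR (x 0) (x 1) (x 2)) (cR (x 0) (x 1) (x 2))

lemma aFn_eq_aR (x : Fin 3 → ℝ) : aFn 3 x = aR (x 0) (x 1) (x 2) := by
  unfold aFn aR
  simp [Fin.sum_univ_three]
  ring

lemma dotZ_eq (x w : Fin 3 → ℝ) : dotZ 3 x w = zR (x 0) (x 1) (x 2) (w 0) (w 1) (w 2) := by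
  unfold dotZ zR
  simp [Fin.sum_univ_three]

lemma simp_coords {x : Fin 3 → ℝ} (hx : x ∈ Simp 3) : 0 ≤ x 0 ∧ 0 ≤ x 1 ∧ 0 ≤ x 2 ∧ x 0 + x 1 + x 2 = 1 := by
  refine ⟨hx.1 0, hx.1 1, hx.1 2, ?_⟩
  have := hx.2
  rwa [Fin.sum_univ_three] at this

lemma reg_simp {x : Fin 3 → ℝ} (hx : x ∈ Simp 3) : Reg (aR (x 0) (x 1) (x 2)) (cR (x 0) (x 1) (x 2)) := by
  obtain ⟨h0, h1, h2, h⟩ := simp_coords hx
  exact reg_of_simplex h0 h1 h2 h

lemma BddS_psiF : SLaw.BddS psiF := by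
  refine ⟨10, fun x hx => ?_⟩
  have h := reg_simp hx
  unfold psiF psiP
  set a := aR (x 0) (x 1) (x 2)
  set c := cR (x 0) (x 1) (x 2)
  have ha := h.ha
  have ho := h.ho
  have hV := h.hV
  have hV1 : 1 - 3 * a + 2 * c ≤ 1 := by linarith [h.hl]
  have hV2 : (1 - 3 * a + 2 * c) ^ 2 ≤ 1 := by nlinarith
  have hV3 : 0 ≤ (1 - 3 * a + 2 * c) ^ 2 := sq_nonneg _
  rw [abs_le]
  constructor <;> linarith

/-- the values of `star` -/
lemma star_apply {x w : Fin 3 → ℝ} (h : ∑ j, x j * w j ≠ 0) (i : Fin 3) :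
    star 3 x w i = x i * w i / ∑ j, x j * w j := by
  simp [star, h]

/-- the kernel of `a` in coordinates -/
lemma kern_a {x w : Fin 3 → ℝ} (hZ : 0 < dotZ 3 x w) :
    dotZ 3 x w * aFn 3 (star 3 x w) = dotZ 3 x w
      - nuR (x 0) (x 1) (x 2) (w 0) (w 1) (w 2) / dotZ 3 x w := by
  have hS : ∑ j, x j * w j ≠ 0 := by
    intro h0
    unfold dotZ at hZ
    rw [h0] at hZ
    simp at hZ
  rw [aFn_eq_aR, star_apply hS, star_apply hS, star_apply hS, dotZ_eq] at *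
  rw [Fin.sum_univ_three] at *
  unfold zR at *
  set A := x 0 * w 0 with hA
  set B := x 1 * w 1 with hB
  set C := x 2 * w 2 with hC
  have e : nuR (x 0) (x 1) (x 2) (w 0) (w 1) (w 2) = 27 * (A * B + A * C + B * C) := by
    unfold nuR; rw [hA, hB, hC]; ring
  rw [e]
  unfold aR
  have hne : A + B + C ≠ 0 := hS
  field_simp
  ring

/-- the value of `V` at the product -/
lemma vR_star {x w : Fin 3 → ℝ} (hZ : 0 < dotZ 3 x w) :
    vR (star 3 x w 0) (star 3 x w 1) (star 3 x w 2)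
      = vR (x 0) (x 1) (x 2) * vR (w 0) (w 1) (w 2) / (dotZ 3 x w) ^ 3 := by
  have hS : ∑ j, x j * w j ≠ 0 := by
    intro h0
    unfold dotZ at hZ
    rw [h0] at hZ
    simp at hZ
  rw [star_apply hS, star_apply hS, star_apply hS, dotZ_eq]
  rw [Fin.sum_univ_three] at *
  unfold zR vR
  field_simp
  ring

/-- the kernel of `ψ` in coordinates -/
lemma kern_psi {x w : Fin 3 → ℝ} (hZ : 0 < dotZ 3 x w) :
    dotZ 3 x w * psiF (star 3 x w) = kernT (vR (x 0) (x 1) (x 2)) (vR (w 0) (w 1) (w 2)) (dotZ 3 x w)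
      (nuR (x 0) (x 1) (x 2) (w 0) (w 1) (w 2)) := by
  have ka := kern_a hZ
  rw [aFn_eq_aR] at ka
  have hv := vR_star hZ
  unfold psiF psiP kernT
  rw [← vR_eq, hv]
  set Z := dotZ 3 x w with hZd
  set a2 := aR (star 3 x w 0) (star 3 x w 1) (star 3 x w 2)
  set n := nuR (x 0) (x 1) (x 2) (w 0) (w 1) (w 2)
  set V := vR (x 0) (x 1) (x 2)
  set V' := vR (w 0) (w 1) (w 2)
  have hZ' : Z ≠ 0 := hZ.ne'
  have e : Z * (173 / 100 * a2 + 103 / 100 * (V * V' / Z ^ 3 - 1) - 7 / 25 * ((V * V' / Z ^ 3) ^ 2 - 1))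
      = 173 / 100 * (Z * a2) + 103 / 100 * (V * V' / Z ^ 2 - Z) - 7 / 25 * (V ^ 2 * V' ^ 2 / Z ^ 5 - Z) := by
    field_simp
  rw [e, ka]


/-- the relabellings -/
abbrev sg1 : Equiv.Perm (Fin 3) := (Equiv.swap (0 : Fin 3) 1) * (Equiv.swap (1 : Fin 3) 2)
/-- the relabellings -/
abbrev sg2 : Equiv.Perm (Fin 3) := (Equiv.swap (1 : Fin 3) 2) * (Equiv.swap (0 : Fin 3) 1)
/-- the relabellings -/
abbrev sg3 : Equiv.Perm (Fin 3) := Equiv.swap (1 : Fin 3) 2
/-- the relabellings -/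
abbrev sg4 : Equiv.Perm (Fin 3) := Equiv.swap (0 : Fin 3) 2
/-- the relabellings -/
abbrev sg5 : Equiv.Perm (Fin 3) := Equiv.swap (0 : Fin 3) 1

/-- the six relabellings -/
lemma sum_perm3 (F : Equiv.Perm (Fin 3) → ℝ) :
    ∑ σ, F σ = F 1 + F sg1 + F sg2 + F sg3 + F sg4 + F sg5 := by
  have e : (Finset.univ : Finset (Equiv.Perm (Fin 3))) = {1, sg1, sg2, sg3, sg4, sg5} := by decide
  rw [e]
  rw [Finset.sum_insert (by decide), Finset.sum_insert (by decide), Finset.sum_insert (by decide),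
    Finset.sum_insert (by decide), Finset.sum_insert (by decide), Finset.sum_singleton]
  ring

/-- the coordinates of the six relabellings -/
lemma perm_vals (y : Fin 3 → ℝ) :
    ((y ∘ (1 : Equiv.Perm (Fin 3))) 0 = y 0 ∧ (y ∘ (1 : Equiv.Perm (Fin 3))) 1 = y 1 ∧ (y ∘ (1 : Equiv.Perm (Fin 3))) 2 = y 2) ∧
    ((y ∘ sg1) 0 = y 1 ∧ (y ∘ sg1) 1 = y 2 ∧ (y ∘ sg1) 2 = y 0) ∧
    ((y ∘ sg2) 0 = y 2 ∧ (y ∘ sg2) 1 = y 0 ∧ (y ∘ sg2) 2 = y 1) ∧
    ((y ∘ sg3) 0 = y 0 ∧ (y ∘ sg3) 1 = y 2 ∧ (y ∘ sg3) 2 = y 1) ∧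
    ((y ∘ sg4) 0 = y 2 ∧ (y ∘ sg4) 1 = y 1 ∧ (y ∘ sg4) 2 = y 0) ∧
    ((y ∘ sg5) 0 = y 1 ∧ (y ∘ sg5) 1 = y 0 ∧ (y ∘ sg5) 2 = y 2) := by
  have e1 : sg1 0 = 1 := by decide
  have e2 : sg1 1 = 2 := by decide
  have e3 : sg1 2 = 0 := by decide
  have f1 : sg2 0 = 2 := by decide
  have f2 : sg2 1 = 0 := by decide
  have f3 : sg2 2 = 1 := by decide
  have g1 : sg3 0 = 0 := by decide
  have g2 : sg3 1 = 2 := by decide
  have g3 : sg3 2 = 1 := by decide
  have h1 : sg4 0 = 2 := by decide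
  have h2 : sg4 1 = 1 := by decide
  have h3 : sg4 2 = 0 := by decide
  have i1 : sg5 0 = 1 := by decide
  have i2 : sg5 1 = 0 := by decide
  have i3 : sg5 2 = 2 := by decide
  simp only [Function.comp_apply, e1, e2, e3, f1, f2, f3, g1, g2, g3, h1, h2, h3, i1, i2, i3,
    Equiv.Perm.coe_one, id_eq, and_self]

/-- `T_lam y` is `T_{-3/16}` of a point of the simplex -/
lemma Tl_eq_seed {lam : ℝ} (h1 : -(3 / 16) ≤ lam) (h2 : lam ≤ 0) {y : Fin 3 → ℝ} (hy : y ∈ Simp 3) :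
    ∃ s : Fin 3 → ℝ, s ∈ Simp 3 ∧ ∀ i, Tl 3 lam y i = -(3 / 16) * s i + 19 / 48 := by
  refine ⟨fun i => (-(16 / 3) * lam) * y i + (1 - (-(16 / 3) * lam)) / 3, ⟨fun i => ?_, ?_⟩, fun i => ?_⟩
  · have h0 := hy.1 i
    have hν : 0 ≤ -(16 / 3) * lam := by linarith
    have hν1 : -(16 / 3) * lam ≤ 1 := by linarith
    have := mul_nonneg hν h0
    show 0 ≤ (-(16 / 3) * lam) * y i + (1 - (-(16 / 3) * lam)) / 3
    linarith
  · have := hy.2
    rw [Fin.sum_univ_three] at this ⊢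
    show (-(16 / 3) * lam) * y 0 + (1 - (-(16 / 3) * lam)) / 3 + ((-(16 / 3) * lam) * y 1 + (1 - (-(16 / 3) * lam)) / 3)
      + ((-(16 / 3) * lam) * y 2 + (1 - (-(16 / 3) * lam)) / 3) = 1
    have e : y 2 = 1 - y 0 - y 1 := by linarith
    rw [e]; ring
  · unfold Tl
    push_cast
    ring

/-- the six values of `Z` are positive on `Δ × T_lam Δ` -/
lemma dotZ_pos {lam : ℝ} (h1 : -(3 / 16) ≤ lam) (h2 : lam ≤ 0) {x y : Fin 3 → ℝ} (hx : x ∈ Simp 3) (hy : y ∈ Simp 3)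
    (σ : Equiv.Perm (Fin 3)) : 0 < dotZ 3 x (Tl 3 lam y ∘ σ) := by
  have hy' := comp_mem_Simp σ hy
  obtain ⟨s, hs, hT⟩ := Tl_eq_seed h1 h2 hy'
  obtain ⟨h0, h1', h2', h⟩ := simp_coords hx
  obtain ⟨g0, g1, g2, g⟩ := simp_coords hs
  have e : ∀ i, (Tl 3 lam y ∘ σ) i = -(3 / 16) * s i + 19 / 48 := fun i => by
    rw [← hT i]
    simp [Tl, Function.comp]
  rw [dotZ_eq, e, e, e]
  have := zR_range h0 h1' h2' h g0 g1 g2 g
  linarith

/-- **(I)** -/
theorem Esig_a_le {lam : ℝ} (h1 : -(3 / 16) ≤ lam) (h2 : lam ≤ 0) {x y : Fin 3 → ℝ} (hx : x ∈ Simp 3) (hy : y ∈ Simp 3) :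
    Esig 3 (aFn 3) x (Tl 3 lam y) ≤ aFn 3 x + aFn 3 (Tl 3 lam y) * (1 - psiF x) := by
  obtain ⟨s, hs, hT⟩ := Tl_eq_seed h1 h2 hy
  set y' := Tl 3 lam y with hy'
  obtain ⟨p1, p2, p3, p4, p5, p6⟩ := perm_vals y'
  obtain ⟨h0, h1', h2', h⟩ := simp_coords hx
  obtain ⟨g0, g1, g2, g⟩ := simp_coords hs
  have key := pair_I h0 h1' h2' h g0 g1 g2 g (hT 0) (hT 1) (hT 2)
  unfold Esig
  rw [sum_perm3]
  have hpos := fun σ => dotZ_pos h1 h2 hx hy σ
  simp only [← hy'] at hpos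
  rw [kern_a (hpos _), kern_a (hpos _), kern_a (hpos _), kern_a (hpos _), kern_a (hpos _), kern_a (hpos _)]
  simp only [dotZ_eq, p1.1, p1.2.1, p1.2.2, p2.1, p2.2.1, p2.2.2, p3.1, p3.2.1, p3.2.2, p4.1, p4.2.1, p4.2.2,
    p5.1, p5.2.1, p5.2.2, p6.1, p6.2.1, p6.2.2]
  rw [aFn_eq_aR x, aFn_eq_aR y']
  have e6 : ((Nat.factorial 3 : ℕ) : ℝ) = 6 := by norm_num [Nat.factorial]
  rw [e6]
  exact key

/-- **(II)** -/
theorem le_Esig_psi {lam : ℝ} (h1 : -(3 / 16) ≤ lam) (h2 : lam ≤ 0) {x y : Fin 3 → ℝ} (hx : x ∈ Simp 3) (hy : y ∈ Simp 3) :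
    psiF x + aFn 3 (Tl 3 lam y) * (1 / 200 - 5 * psiF x) ≤ Esig 3 psiF x (Tl 3 lam y) := by
  obtain ⟨s, hs, hT⟩ := Tl_eq_seed h1 h2 hy
  set y' := Tl 3 lam y with hy'
  obtain ⟨p1, p2, p3, p4, p5, p6⟩ := perm_vals y'
  obtain ⟨h0, h1', h2', h⟩ := simp_coords hx
  obtain ⟨g0, g1, g2, g⟩ := simp_coords hs
  have key := pair_II h0 h1' h2' h g0 g1 g2 g (hT 0) (hT 1) (hT 2)
  unfold Esig
  rw [sum_perm3]
  have hpos := fun σ => dotZ_pos h1 h2 hx hy σ
  simp only [← hy'] at hpos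
  rw [kern_psi (hpos _), kern_psi (hpos _), kern_psi (hpos _), kern_psi (hpos _), kern_psi (hpos _), kern_psi (hpos _)]
  simp only [dotZ_eq, p1.1, p1.2.1, p1.2.2, p2.1, p2.2.1, p2.2.2, p3.1, p3.2.1, p3.2.2, p4.1, p4.2.1, p4.2.2,
    p5.1, p5.2.1, p5.2.2, p6.1, p6.2.1, p6.2.2]
  rw [aFn_eq_aR y']
  have e6 : ((Nat.factorial 3 : ℕ) : ℝ) = 6 := by norm_num [Nat.factorial]
  rw [e6]
  have v1 : vR (y' 1) (y' 2) (y' 0) = vR (y' 0) (y' 1) (y' 2) := by unfold vR; ring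
  have v2 : vR (y' 2) (y' 0) (y' 1) = vR (y' 0) (y' 1) (y' 2) := by unfold vR; ring
  have v3 : vR (y' 0) (y' 2) (y' 1) = vR (y' 0) (y' 1) (y' 2) := by unfold vR; ring
  have v4 : vR (y' 2) (y' 1) (y' 0) = vR (y' 0) (y' 1) (y' 2) := by unfold vR; ring
  have v5 : vR (y' 1) (y' 0) (y' 2) = vR (y' 0) (y' 1) (y' 2) := by unfold vR; ring
  rw [v1, v2, v3, v4, v5]
  exact key


/-! ## The law level -/

namespace SL
open SLaw

variable {q : ℕ}

/-- the generic step: a bound on the inner functional integrates -/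
theorem prod_le_of_step (L L' : SLaw q) (hq : 0 < q) {ι : Type} [Fintype ι] {f : (Fin q → ℝ) → ℝ}
    (g : ι → (Fin q → ℝ) → ℝ) (C : ι → ℝ) (hf : BddS f) (hg : ∀ k, BddS (g k))
    (step : ∀ o, L'.Φ (fun x' => Esig q f (L.post o) x') ≤ ∑ k, g k (L.post o) * C k) :
    (L.prod L').Φ f ≤ ∑ k, L.Φ (g k) * C k := by
  have hsum : ∀ k, Summable (fun o => L.mass o * g k (L.post o)) := fun k => L.summable_Φ hq (hg k)
  have e2 : ∑ k, L.Φ (g k) * C k = ∑' o, L.mass o * ∑ k, g k (L.post o) * C k := by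
    have : ∀ o, L.mass o * ∑ k, g k (L.post o) * C k
        = ∑ k, (L.mass o * g k (L.post o)) * C k := fun o => by
      rw [Finset.mul_sum]; exact Finset.sum_congr rfl fun k _ => by ring
    simp only [this]
    rw [(Summable.tsum_finsetSum (fun k _ => (hsum k).mul_right _))]
    refine Finset.sum_congr rfl fun k _ => ?_
    rw [tsum_mul_right]; rfl
  rw [L.Φ_prod L' hq hf, e2]
  have hB : ∀ o, |L'.Φ (fun x' => Esig q f (L.post o) x')| ≤ (q * (Classical.choose hf)) := by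
    intro o
    have hC := Classical.choose_spec hf
    have hb0 := BddS_Esig hq hf (L.post_mem hq o)
    have h1 : L'.Φ (fun x' => Esig q f (L.post o) x') ≤ L'.Φ (fun _ => q * Classical.choose hf) :=
      L'.Φ_mono hq hb0 (BddS.const _) (fun x' hx' => (le_abs_self _).trans (abs_Esig_le hq hC (L.post_mem hq o) hx'))
    have h2 : L'.Φ (fun _ => -(q * Classical.choose hf)) ≤ L'.Φ (fun x' => Esig q f (L.post o) x') :=
      L'.Φ_mono hq (BddS.const _) hb0 (fun x' hx' => (neg_le_of_abs_le (abs_Esig_le hq hC (L.post_mem hq o) hx')))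
    rw [L'.Φ_const hq] at h1 h2
    exact abs_le.2 ⟨h2, h1⟩
  have s1 : Summable (fun o => L.mass o * L'.Φ (fun x' => Esig q f (L.post o) x')) := by
    refine Summable.of_norm_bounded (g := fun o => L.mass o * (q * Classical.choose hf))
      ((L.summable_mass hq).mul_right _) ?_
    intro o
    rw [Real.norm_eq_abs, abs_mul, abs_of_nonneg (L.mass_nonneg hq o)]
    exact mul_le_mul_of_nonneg_left (hB o) (L.mass_nonneg hq o)
  have s2 : Summable (fun o => L.mass o * ∑ k, g k (L.post o) * C k) := by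
    have : ∀ o, L.mass o * ∑ k, g k (L.post o) * C k
        = ∑ k, (L.mass o * g k (L.post o)) * C k := fun o => by
      rw [Finset.mul_sum]; exact Finset.sum_congr rfl fun k _ => by ring
    simp only [this]
    exact summable_sum fun k _ => (hsum k).mul_right _
  exact s1.tsum_le_tsum (fun o => mul_le_mul_of_nonneg_left (step o) (L.mass_nonneg hq o)) s2

end SL

open SLaw

section
variable {lam : ℝ} (hch : ∀ i j : Fin 3, 0 ≤ channel 3 lam i j)
include hch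

lemma Tl_mem3 {y : Fin 3 → ℝ} (hy : y ∈ Simp 3) : Tl 3 lam y ∈ Simp 3 :=
  SLaw.Tl_mem (by norm_num) lam hch hy

lemma BddS_aT : BddS (aFn 3 ∘ Tl 3 lam) := by
  refine ⟨1, fun x hx => ?_⟩
  have hm := Tl_mem3 hch hx
  have h0 := aFn_nonneg (q := 3) (by norm_num) hm
  have h1 := aFn_le_one (q := 3) (by norm_num) hm
  exact abs_le.2 ⟨by simp only [Function.comp_apply]; linarith, h1⟩

/-- bound of (I) along one product -/
theorem prod_a_le (h1 : -(3 / 16) ≤ lam) (h2 : lam ≤ 0) (L M : SLaw 3) :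
    (L.prod (M.tilt lam hch)).Φ (aFn 3)
      ≤ L.Φ (aFn 3) + (M.tilt lam hch).Φ (aFn 3) * (1 - L.Φ psiF) := by
  have hq : 0 < 3 := by norm_num
  have ha : BddS (aFn 3) := BddS_aFn (by norm_num)
  set t := (M.tilt lam hch).Φ (aFn 3) with ht
  have key := SL.prod_le_of_step L (M.tilt lam hch) hq (ι := Fin 3) (f := aFn 3)
    ![aFn 3, fun _ => 1, fun x => - psiF x] ![1, t, t] ha
    (fun k => by
      fin_cases k
      · exact ha
      · exact BddS.const 1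
      · exact BddS.neg BddS_psiF)
    (fun o => by
      have hx := L.post_mem hq o
      rw [M.Φ_tilt hq lam hch (BddS_Esig hq ha hx) (fun y hy => Tl_mem3 hch hy)]
      have hb : BddS ((fun x' => Esig 3 (aFn 3) (L.post o) x') ∘ Tl 3 lam) := by
        obtain ⟨C, hC⟩ := BddS_Esig hq ha hx
        exact ⟨C, fun y hy => hC _ (Tl_mem3 hch hy)⟩
      have hT := BddS_aT hch
      have hle := M.Φ_mono hq hb
        (BddS.add (BddS.const (aFn 3 (L.post o)))
          (BddS.const_mul (1 - psiF (L.post o)) hT))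
        (fun y hy => by
          simp only [Function.comp_apply]
          have := Esig_a_le h1 h2 hx hy
          linarith)
      rw [M.Φ_add hq (BddS.const _) (BddS.const_mul _ hT), M.Φ_const hq, M.Φ_const_mul hq _ hT] at hle
      have e : M.Φ (aFn 3 ∘ Tl 3 lam) = t := by
        rw [ht, M.Φ_tilt hq lam hch ha (fun y hy => Tl_mem3 hch hy)]
      rw [e] at hle
      simp only [Fin.sum_univ_three, Matrix.cons_val_zero, Matrix.cons_val_one, Matrix.cons_val]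
      linarith)
  simp only [Fin.sum_univ_three, Matrix.cons_val_zero, Matrix.cons_val_one, Matrix.cons_val] at key
  rw [L.Φ_const hq, Φ_neg hq BddS_psiF] at key
  linarith

/-- bound of (II) along one product -/
theorem le_prod_psi (h1 : -(3 / 16) ≤ lam) (h2 : lam ≤ 0) (L M : SLaw 3) :
    L.Φ psiF + (M.tilt lam hch).Φ (aFn 3) * (1 / 200 - 5 * L.Φ psiF)
      ≤ (L.prod (M.tilt lam hch)).Φ psiF := by
  have hq : 0 < 3 := by norm_num
  have ha : BddS (aFn 3) := BddS_aFn (by norm_num)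
  set t := (M.tilt lam hch).Φ (aFn 3) with ht
  have hn : BddS (fun x => - psiF x) := BddS.neg BddS_psiF
  have key := SL.prod_le_of_step L (M.tilt lam hch) hq (ι := Fin 3) (f := fun x => - psiF x)
    ![fun x => - psiF x, fun _ => 1, psiF] ![1, -(t * (1 / 200)), 5 * t] hn
    (fun k => by
      fin_cases k
      · exact hn
      · exact BddS.const 1
      · exact BddS_psiF)
    (fun o => by
      have hx := L.post_mem hq o
      rw [M.Φ_tilt hq lam hch (BddS_Esig hq hn hx) (fun y hy => Tl_mem3 hch hy)]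
      have hb : BddS ((fun x' => Esig 3 (fun x => - psiF x) (L.post o) x') ∘ Tl 3 lam) := by
        obtain ⟨C, hC⟩ := BddS_Esig hq hn hx
        exact ⟨C, fun y hy => hC _ (Tl_mem3 hch hy)⟩
      have hT := BddS_aT hch
      have hle := M.Φ_mono hq hb
        (BddS.add (BddS.const (- psiF (L.post o)))
          (BddS.const_mul (-(1 / 200 - 5 * psiF (L.post o))) hT))
        (fun y hy => by
          simp only [Function.comp_apply]
          rw [Esig_neg]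
          have := le_Esig_psi h1 h2 hx hy
          linarith)
      rw [M.Φ_add hq (BddS.const _) (BddS.const_mul _ hT), M.Φ_const hq, M.Φ_const_mul hq _ hT] at hle
      have e : M.Φ (aFn 3 ∘ Tl 3 lam) = t := by
        rw [ht, M.Φ_tilt hq lam hch ha (fun y hy => Tl_mem3 hch hy)]
      rw [e] at hle
      simp only [Fin.sum_univ_three, Matrix.cons_val_zero, Matrix.cons_val_one, Matrix.cons_val]
      linarith)
  simp only [Fin.sum_univ_three, Matrix.cons_val_zero, Matrix.cons_val_one, Matrix.cons_val] at key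
  rw [L.Φ_const hq, Φ_neg hq BddS_psiF, Φ_neg hq BddS_psiF] at key
  linarith

end


section pow
variable {lam : ℝ} (hch : ∀ i j : Fin 3, 0 ≤ channel 3 lam i j)

lemma aFn_unif : aFn 3 (fun _ => (1 : ℝ) / (3 : ℕ)) = 0 := by
  rw [aFn_eq_aR]
  unfold aR
  norm_num

lemma psiF_unif : psiF (fun _ => (1 : ℝ) / (3 : ℕ)) = 0 := by
  unfold psiF psiP cR vR aR
  norm_num

/-- the second moment of `K` is small -/
lemma t_range (h1 : -(3 / 16) ≤ lam) (h2 : lam ≤ 0) (M : SLaw 3) :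
    0 ≤ (M.tilt lam hch).Φ (aFn 3) ∧ (M.tilt lam hch).Φ (aFn 3) ≤ 9 / 256 := by
  have hq2 : 2 ≤ 3 := by norm_num
  refine ⟨Φ_aFn_nonneg _ hq2, ?_⟩
  rw [SLaw.Φ_aFn_tilt _ hq2 lam hch]
  have h0 := M.Φ_aFn_nonneg hq2
  have h3 := M.Φ_aFn_le_one hq2
  have h4 : lam ^ 2 ≤ 9 / 256 := by nlinarith
  have h5 : 0 ≤ lam ^ 2 := sq_nonneg lam
  nlinarith

/-- `h_c ≥ 0` and `h_{c+1} ≥ t/200` -/
lemma psi_pow (h1 : -(3 / 16) ≤ lam) (h2 : lam ≤ 0) (M : SLaw 3) (c : ℕ) :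
    0 ≤ ((M.tilt lam hch).pow c).Φ psiF ∧
      (M.tilt lam hch).Φ (aFn 3) / 200 ≤ ((M.tilt lam hch).pow (c + 1)).Φ psiF := by
  obtain ⟨t0, t1⟩ := t_range hch h1 h2 M
  induction c with
  | zero =>
    have e : ((M.tilt lam hch).pow 0).Φ psiF = 0 := by
      rw [Φ_pow_zero _ (by norm_num)]
      exact psiF_unif
    refine ⟨e.ge, ?_⟩
    have := le_prod_psi hch h1 h2 ((M.tilt lam hch).pow 0) M
    rw [e] at this
    have e2 : ((M.tilt lam hch).pow (0 + 1)) = ((M.tilt lam hch).pow 0).prod (M.tilt lam hch) := rfl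
    rw [e2]
    linarith
  | succ c ih =>
    have hh := ih.2
    have h0 : 0 ≤ ((M.tilt lam hch).pow (c + 1)).Φ psiF := le_trans (by positivity) hh
    refine ⟨h0, ?_⟩
    have := le_prod_psi hch h1 h2 ((M.tilt lam hch).pow (c + 1)) M
    have e2 : ((M.tilt lam hch).pow (c + 1 + 1)) = ((M.tilt lam hch).pow (c + 1)).prod (M.tilt lam hch) := rfl
    rw [e2]
    nlinarith [mul_nonneg t0 h0]

/-- `f_{c+1} ≤ (c+1) t - c t²/200` -/
lemma a_pow (h1 : -(3 / 16) ≤ lam) (h2 : lam ≤ 0) (M : SLaw 3) (c : ℕ) :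
    ((M.tilt lam hch).pow (c + 1)).Φ (aFn 3)
      ≤ (c + 1) * (M.tilt lam hch).Φ (aFn 3) - c * ((M.tilt lam hch).Φ (aFn 3) ^ 2 / 200) := by
  obtain ⟨t0, t1⟩ := t_range hch h1 h2 M
  induction c with
  | zero =>
    have e : ((M.tilt lam hch).pow 0).Φ (aFn 3) = 0 := by
      rw [Φ_pow_zero _ (by norm_num)]
      exact aFn_unif
    have e' : ((M.tilt lam hch).pow 0).Φ psiF = 0 := by
      rw [Φ_pow_zero _ (by norm_num)]
      exact psiF_unif
    have := prod_a_le hch h1 h2 ((M.tilt lam hch).pow 0) M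
    rw [e, e'] at this
    have e2 : ((M.tilt lam hch).pow (0 + 1)) = ((M.tilt lam hch).pow 0).prod (M.tilt lam hch) := rfl
    rw [e2]
    push_cast
    linarith
  | succ c ih =>
    have := prod_a_le hch h1 h2 ((M.tilt lam hch).pow (c + 1)) M
    have hh := (psi_pow hch h1 h2 M c).2
    have e2 : ((M.tilt lam hch).pow (c + 1 + 1)) = ((M.tilt lam hch).pow (c + 1)).prod (M.tilt lam hch) := rfl
    rw [e2]
    push_cast
    have h3 := mul_le_mul_of_nonneg_left hh t0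
    nlinarith

lemma a_pow_le (h1 : -(3 / 16) ≤ lam) (h2 : lam ≤ 0) (M : SLaw 3) (c : ℕ) :
    ((M.tilt lam hch).pow c).Φ (aFn 3) ≤ c * (M.tilt lam hch).Φ (aFn 3) := by
  obtain ⟨t0, t1⟩ := t_range hch h1 h2 M
  cases c with
  | zero =>
    have e : ((M.tilt lam hch).pow 0).Φ (aFn 3) = 0 := by
      rw [Φ_pow_zero _ (by norm_num)]
      exact aFn_unif
    rw [e]; simp
  | succ c =>
    have := a_pow hch h1 h2 M c
    push_cast
    have h3 : 0 ≤ (c : ℝ) * ((M.tilt lam hch).Φ (aFn 3) ^ 2 / 200) := by positivity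
    linarith

lemma a_pow_two_le (h1 : -(3 / 16) ≤ lam) (h2 : lam ≤ 0) (M : SLaw 3) {c : ℕ} (hc : 2 ≤ c) :
    ((M.tilt lam hch).pow c).Φ (aFn 3)
      ≤ c * (M.tilt lam hch).Φ (aFn 3) - (M.tilt lam hch).Φ (aFn 3) ^ 2 / 200 := by
  obtain ⟨k, rfl⟩ : ∃ k, c = k + 2 := ⟨c - 2, by omega⟩
  have := a_pow hch h1 h2 M (k + 1)
  push_cast at this ⊢
  have h3 : 0 ≤ (k : ℝ) * ((M.tilt lam hch).Φ (aFn 3) ^ 2 / 200) := by positivity
  have h4 : (k + 1 + 1 : ℝ) = k + 2 := by ring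
  nlinarith

end pow

/-- **Regular tree, `-3/16 ≤ lam < 0`.** -/
theorem advantage_tendsto {b : ℕ} (hb : 2 ≤ b) {lam : ℝ} (h1 : -(3 / 16) ≤ lam) (h2 : lam < 0)
    (hbl : (b : ℝ) * lam ^ 2 ≤ 1) :
    Filter.Tendsto (advantage 3 b lam) Filter.atTop (nhds 0) := by
  have hch : ∀ i j : Fin 3, 0 ≤ channel 3 lam i j := fun i j =>
    channel_nonneg (q := 3) (by norm_num) (Or.inl (by norm_num; linarith)) (by linarith) i j
  have hq0 : 0 < 3 := by norm_num
  have hq2 : 2 ≤ 3 := by norm_num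
  have e : advantage 3 b lam = fun n => (leafSL 3 b lam n hq0 hch).Φ (tvU 3) :=
    funext fun n => advantage_eq b lam n hq0 hch
  rw [e]
  refine tendsto_Φ_tvU_of_aFn hq2 _ ?_
  have hl2 : 0 < lam ^ 4 := by
    have hne : lam ≠ 0 := h2.ne
    positivity
  refine tendsto_zero_of_decrease (P := fun s => lam ^ 4 / 200 * s ^ 2)
    (fun n => SLaw.Φ_aFn_nonneg _ hq2) (by fun_prop) (fun t ht => by positivity) ?_ ?_
  · intro t _ h
    have h3 : t ^ 2 = 0 := by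
      rcases mul_eq_zero.1 h with h | h
      · exfalso
        have : 0 < lam ^ 4 / 200 := by positivity
        linarith
      · exact h
    exact pow_eq_zero_iff (by norm_num) |>.1 h3
  · intro n
    rw [leafSL_succ b lam n hq0 hch (BddS_aFn hq2)]
    have h3 := a_pow_two_le hch h1 h2.le (leafSL 3 b lam n hq0 hch) hb
    rw [SLaw.Φ_aFn_tilt _ hq2 lam hch] at h3
    set s := (leafSL 3 b lam n hq0 hch).Φ (aFn 3)
    have s0 : 0 ≤ s := SLaw.Φ_aFn_nonneg _ hq2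
    have h4 : (b : ℝ) * (lam ^ 2 * s) ≤ s := by
      have := mul_le_mul_of_nonneg_right hbl s0
      linarith
    have h5 : (lam ^ 2 * s) ^ 2 / 200 = lam ^ 4 / 200 * s ^ 2 := by ring
    rw [h5] at h3
    linarith

/-- **Poisson tree, `-3/16 ≤ lam < 0`.** -/
theorem gwAdvantage_tendsto {d : ℝ} (hd : 0 < d) {lam : ℝ} (h1 : -(3 / 16) ≤ lam) (h2 : lam < 0)
    (hdl : d * lam ^ 2 ≤ 1) :
    Filter.Tendsto (gwAdvantage 3 lam d) Filter.atTop (nhds 0) := by
  have hch : ∀ i j : Fin 3, 0 ≤ channel 3 lam i j := fun i j =>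
    channel_nonneg (q := 3) (by norm_num) (Or.inl (by norm_num; linarith)) (by linarith) i j
  have hq0 : 0 < 3 := by norm_num
  have hq2 : 2 ≤ 3 := by norm_num
  have e : gwAdvantage 3 lam d = fun n => (gwSL 3 lam d n hd.le hq0 hch).Φ (tvU 3) :=
    funext fun n => gwAdvantage_eq lam d n hd.le hq0 hch
  rw [e]
  refine tendsto_Φ_tvU_of_aFn hq2 _ ?_
  have hl2 : 0 < lam ^ 4 := by
    have hne : lam ≠ 0 := h2.ne
    positivity
  have hp2 : 0 < Cert.pw d 2 := by unfold Cert.pw; positivity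
  refine tendsto_zero_of_decrease (P := fun s => Cert.pw d 2 * (lam ^ 4 / 200 * s ^ 2))
    (fun n => SLaw.Φ_aFn_nonneg _ hq2) (by fun_prop) (fun t ht => by positivity) ?_ ?_
  · intro t _ h
    have h3 : t ^ 2 = 0 := by
      rcases mul_eq_zero.1 h with h | h
      · exfalso; linarith
      · rcases mul_eq_zero.1 h with h | h
        · exfalso
          have : 0 < lam ^ 4 / 200 := by positivity
          linarith
        · exact h
    exact pow_eq_zero_iff (by norm_num) |>.1 h3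
  · intro n
    rw [gwSL_succ lam d n hd.le hq0 hch (BddS_aFn hq2)]
    set M := gwSL 3 lam d n hd.le hq0 hch with hM
    set L := M.tilt lam hch with hL
    have hLt : L.Φ (aFn 3) = lam ^ 2 * M.Φ (aFn 3) := SLaw.Φ_aFn_tilt _ hq2 lam hch
    set t := L.Φ (aFn 3) with ht
    have hs1 : Summable (fun c : ℕ => Cert.pw d c * (L.pow c).Φ (aFn 3)) := by
      refine Summable.of_nonneg_of_le
        (fun c => mul_nonneg (Cert.pw_nonneg hd.le c) ((L.pow c).Φ_aFn_nonneg hq2)) (fun c => ?_)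
        (Cert.hasSum_pw d).summable
      have := mul_le_mul_of_nonneg_left ((L.pow c).Φ_aFn_le_one hq2) (Cert.pw_nonneg hd.le c)
      simpa using this
    have hsum2 : HasSum (fun c : ℕ => Cert.pw d c * c * t - (if c = 2 then Cert.pw d 2 * (t ^ 2 / 200) else 0))
        (d * t - Cert.pw d 2 * (t ^ 2 / 200)) :=
      ((Cert.hasSum_pw_mul d).mul_right t).sub (hasSum_ite_eq 2 (Cert.pw d 2 * (t ^ 2 / 200)))
    have hle : ∀ c : ℕ, Cert.pw d c * (L.pow c).Φ (aFn 3)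
        ≤ Cert.pw d c * c * t - (if c = 2 then Cert.pw d 2 * (t ^ 2 / 200) else 0) := by
      intro c
      by_cases hc : c = 2
      · subst hc
        have := mul_le_mul_of_nonneg_left (a_pow_two_le hch h1 h2.le M (le_refl 2)) (Cert.pw_nonneg hd.le 2)
        simp only [if_true]
        rw [← hL] at this
        push_cast at this ⊢
        nlinarith
      · simp only [if_neg hc, sub_zero]
        have := mul_le_mul_of_nonneg_left (a_pow_le hch h1 h2.le M c) (Cert.pw_nonneg hd.le c)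
        rw [← hL] at this
        nlinarith
    have h3 := hs1.tsum_le_tsum hle hsum2.summable
    rw [hsum2.tsum_eq] at h3
    have h4 : ∑' c : ℕ, (Real.exp (-d) * d ^ c / Nat.factorial c) * (L.pow c).Φ (aFn 3)
        = ∑' c : ℕ, Cert.pw d c * (L.pow c).Φ (aFn 3) := rfl
    rw [h4]
    set s := M.Φ (aFn 3)
    have s0 : 0 ≤ s := SLaw.Φ_aFn_nonneg _ hq2
    have h5 : d * t ≤ s := by
      rw [hLt]
      have := mul_le_mul_of_nonneg_right hdl s0
      linarith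
    have h6 : t ^ 2 / 200 = lam ^ 4 / 200 * s ^ 2 := by rw [hLt]; ring
    rw [h6] at h3
    linarith

end Crest.Agent.Lib.Bc.LargeD
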