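import Mathlib
/-!
# Row 163, q = 3, large degree: polynomial certificates (generated)

`Reg a c` says `(a, c)` lies in the image of the simplex. The polynomials below are the Bernstein coefficients, in the
second variable `(a0, c0)`, of the two master polynomials; each is nonnegative on `Reg`.
-/
namespace Crest.Agent.Lib.Bc.LargeD

/-- the region of `(a, c)` -/
structure Reg (a c : ℝ) : Prop where
  ha : 0 ≤ a
  ho : a ≤ 1
  hl : c ≤ a
  hs : 0 ≤ a + 2 * c
  hV : 0 ≤ 1 - 3 * a + 2 * c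
  hk : c ^ 2 ≤ a ^ 3

/-- the parabola bound: from `c² ≤ a³` -/
lemma Reg.par {a c : ℝ} (h : Reg a c) (β : ℝ) : 0 ≤ a + β * c + β ^ 2 / 4 * a ^ 2 := by
  have h0 := h.ha
  have hk := h.hk
  by_contra hneg
  push Not at hneg
  set X := a + β ^ 2 / 4 * a ^ 2 with hX
  have hX0 : 0 ≤ X := by positivity
  have h1 : X + β * c < 0 := by rw [hX]; linarith
  have h2 : X ^ 2 < (β * c) ^ 2 := by nlinarith
  have h3 : (β * c) ^ 2 ≤ β ^ 2 * a ^ 3 := by
    have : (β * c) ^ 2 = β ^ 2 * c ^ 2 := by ring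
    rw [this]
    exact mul_le_mul_of_nonneg_left hk (sq_nonneg β)
  have h4 : X ^ 2 - β ^ 2 * a ^ 3 = (a - β ^ 2 / 4 * a ^ 2) ^ 2 := by rw [hX]; ring
  nlinarith [sq_nonneg (a - β ^ 2 / 4 * a ^ 2)]

/-- Bernstein coefficient -/
noncomputable def fpPI_002 (a c : ℝ) : ℝ := (745371/26214400)*c^1 + (2052963/52428800)*c^2 + (1701/6553600)*c^3 + (22959/819200)*a^1 + (-177147/1638400)*a^1*c^1 + (-32319/6553600)*a^1*c^2 + (23121/1638400)*a^2 + (341901/26214400)*a^2*c^1 + (-15309/1638400)*a^3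

lemma pPI_002 {a c : ℝ} (h : Reg a c) : 0 ≤ fpPI_002 a c := by
  have ha := h.ha
  have ho : 0 ≤ 1 - a := by linarith [h.ho]
  have hl : 0 ≤ a - c := by linarith [h.hl]
  have hs := h.hs
  have hV := h.hV
  unfold fpPI_002
  linarith only [(mul_nonneg hs (h.par (-2))), (mul_nonneg (mul_nonneg hl hV) hV), (mul_nonneg (mul_nonneg hs hs) hV), (mul_nonneg ho (h.par (-12))), (h.par (-3)), (mul_nonneg (mul_nonneg ho hs) hV), (mul_nonneg hl (h.par (-12))), (mul_nonneg hs (h.par (-3))), (mul_nonneg hV (h.par (12)))]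

/-- Bernstein coefficient -/
noncomputable def fpPI_011 (a c : ℝ) : ℝ := (1990917/26214400)*c^1 + (4140189/52428800)*c^2 + (-1701/6553600)*c^3 + (14859/409600)*a^1 + (-772659/3276800)*a^1*c^1 + (-49329/6553600)*a^1*c^2 + (39321/819200)*a^2 + (25515/1048576)*a^2*c^1 + (-15309/819200)*a^3

lemma pPI_011 {a c : ℝ} (h : Reg a c) : 0 ≤ fpPI_011 a c := by
  have ha := h.ha
  have ho : 0 ≤ 1 - a := by linarith [h.ho]
  have hl : 0 ≤ a - c := by linarith [h.hl]
  have hs := h.hs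
  have hV := h.hV
  unfold fpPI_011
  linarith only [(mul_nonneg ho (h.par (12))), (mul_nonneg hl (h.par (-12))), (mul_nonneg hs (h.par (-2))), (mul_nonneg ho (h.par (-12))), (mul_nonneg hs (h.par (-3))), (mul_nonneg (mul_nonneg hs hV) hV), (mul_nonneg (mul_nonneg hl hs) hs), (mul_nonneg (mul_nonneg ho ho) hs), (mul_nonneg hV (h.par (12)))]

/-- Bernstein coefficient -/
noncomputable def fpPI_020 (a c : ℝ) : ℝ := (622773/13107200)*c^1 + (1043613/26214400)*c^2 + (-1701/3276800)*c^3 + (6759/819200)*a^1 + (-83673/655360)*a^1*c^1 + (-1701/655360)*a^1*c^2 + (55521/1638400)*a^2 + (147987/13107200)*a^2*c^1 + (-15309/1638400)*a^3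

lemma pPI_020 {a c : ℝ} (h : Reg a c) : 0 ≤ fpPI_020 a c := by
  have ha := h.ha
  have ho : 0 ≤ 1 - a := by linarith [h.ho]
  have hl : 0 ≤ a - c := by linarith [h.hl]
  have hs := h.hs
  have hV := h.hV
  unfold fpPI_020
  linarith only [(mul_nonneg (mul_nonneg hl hV) (h.par (12))), (mul_nonneg (mul_nonneg ho hs) (h.par (8))), (mul_nonneg (mul_nonneg (mul_nonneg hl hl) hl) hl), (mul_nonneg (h.par (6)) (h.par (8))), (mul_nonneg (mul_nonneg (mul_nonneg hs hs) hs) hV), (mul_nonneg (mul_nonneg hl hV) (h.par (8))), (mul_nonneg (mul_nonneg (mul_nonneg hs hV) hV) hV), (mul_nonneg (h.par (12)) (h.par (-2))), (mul_nonneg (mul_nonneg (mul_nonneg hl hs) hs) hV), (mul_nonneg (mul_nonneg hl hs) (h.par (6))), (mul_nonneg (mul_nonneg hs hV) (h.par (12))), (mul_nonneg (mul_nonneg (mul_nonneg ho hs) hs) hs), (mul_nonneg (mul_nonneg hV hV) (h.par (6))), (mul_nonneg (mul_nonneg hl hl) (h.par (-12)))]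

/-- Bernstein coefficient -/
noncomputable def fpPI_101 (a c : ℝ) : ℝ := (3141/102400)*c^1 + (63/1600)*c^2 + (3123/102400)*a^1 + (-11421/102400)*a^1*c^1 + (1197/102400)*a^2

lemma pPI_101 {a c : ℝ} (h : Reg a c) : 0 ≤ fpPI_101 a c := by
  have ha := h.ha
  have ho : 0 ≤ 1 - a := by linarith [h.ho]
  have hl : 0 ≤ a - c := by linarith [h.hl]
  have hs := h.hs
  have hV := h.hV
  unfold fpPI_101
  linarith only [(mul_nonneg ho (h.par (-12))), (mul_nonneg (mul_nonneg hl hs) hs), (mul_nonneg (mul_nonneg hs hV) hV), (h.par (-4)), (mul_nonneg ho (h.par (-6))), (mul_nonneg (mul_nonneg hl hV) hV), (mul_nonneg hV (h.par (12))), (mul_nonneg (mul_nonneg ho ho) hs), (mul_nonneg hl (h.par (-12)))]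

/-- Bernstein coefficient -/
noncomputable def fpPI_110 (a c : ℝ) : ℝ := (2583/51200)*c^1 + (63/1600)*c^2 + (549/51200)*a^1 + (-6723/51200)*a^1*c^1 + (1611/51200)*a^2

lemma pPI_110 {a c : ℝ} (h : Reg a c) : 0 ≤ fpPI_110 a c := by
  have ha := h.ha
  have ho : 0 ≤ 1 - a := by linarith [h.ho]
  have hl : 0 ≤ a - c := by linarith [h.hl]
  have hs := h.hs
  have hV := h.hV
  unfold fpPI_110
  linarith only [(mul_nonneg (mul_nonneg hs hV) (h.par (12))), (mul_nonneg (h.par (12)) (h.par (-2))), (mul_nonneg (mul_nonneg hV hV) (h.par (6))), (mul_nonneg (mul_nonneg ho hs) (h.par (-12))), (mul_nonneg (mul_nonneg ho ho) (h.par (8))), (mul_nonneg ho (h.par (-12))), (mul_nonneg (mul_nonneg hs hV) (h.par (-12))), (mul_nonneg (mul_nonneg (mul_nonneg hl hV) hV) hV), (mul_nonneg (mul_nonneg ho hs) (h.par (12))), (mul_nonneg (mul_nonneg (mul_nonneg hs hV) hV) hV), (mul_nonneg (h.par (-3)) (h.par (-12))), (mul_nonneg (mul_nonneg hl hl) (h.par (-12))),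 (mul_nonneg (mul_nonneg hl hV) (h.par (12))), (mul_nonneg (mul_nonneg (mul_nonneg hl hs) hs) hs)]

/-- Bernstein coefficient -/
noncomputable def fpQ_004 (a c : ℝ) : ℝ := (959229/83886080) + (32196635667/343597383680)*c^1 + (3763038305907/21474836480000)*c^2 + (576747711204813/2748779069440000)*c^3 + (-3580404201/53687091200)*a^1 + (-18721387912149/21474836480000)*a^1*c^1 + (-8732326886800893/5497558138880000)*a^1*c^2 + (237563239279347/343597383680000)*a^2 + (360423159710319/171798691840000)*a^2*c^1 + (-6859382229046557/5497558138880000)*a^2*c^2 + (-46173481531713/171798691840000)*a^3 + (643079807243307/171798691840000)*a^3*c^1 + (-964823283188037/343597383680000)*a^4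

lemma pQ_004 {a c : ℝ} (h : Reg a c) : 0 ≤ fpQ_004 a c := by
  have ha := h.ha
  have ho : 0 ≤ 1 - a := by linarith [h.ho]
  have hl : 0 ≤ a - c := by linarith [h.hl]
  have hs := h.hs
  have hV := h.hV
  unfold fpQ_004
  linarith only [(h.par (-12)), (mul_nonneg (mul_nonneg ho hs) (h.par (12))), (mul_nonneg (mul_nonneg hl hV) (h.par (-12))), (mul_nonneg (mul_nonneg (mul_nonneg hs hs) hs) hs), (mul_nonneg (mul_nonneg hl hs) (h.par (12))), (mul_nonneg (mul_nonneg hl hV) (h.par (12))), (mul_nonneg (h.par (12)) (h.par (-12))), (mul_nonneg (mul_nonneg (mul_nonneg hl hV) hV) hV), (mul_nonneg (mul_nonneg (mul_nonneg ho hV) hV) hV), (mul_nonneg (mul_nonneg ho hV) (h.par (12))), (mul_nonneg (mul_nonneg ho hs) (h.par (-12))), (mul_nonneg (h.par (12)) (h.par (-3))), (mul_nonneg (mul_nonneg hs hV) (h.par (-12))), (mul_nonneg hV (h.par (-12)))]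

/-- Bernstein coefficient -/
noncomputable def fpQ_013 (a c : ℝ) : ℝ := (7413471/209715200) + (438556427397/1717986918400)*c^1 + (333180022671/1342177280000)*c^2 + (275740589963187/1374389534720000)*c^3 + (-6042226023/26843545600)*a^1 + (-60323393337399/21474836480000)*a^1*c^1 + (-12085144952459643/2748779069440000)*a^1*c^2 + (479016052678269/171798691840000)*a^2 + (1183876596332469/171798691840000)*a^2*c^1 + (-2713639259064591/549755813888000)*a^2*c^2 + (-18307794818331/17179869184000)*a^3 + (2544061920336081/171798691840000)*a^3*c^1 + (-1908552718440891/171798691840000)*a^4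

lemma pQ_013 {a c : ℝ} (h : Reg a c) : 0 ≤ fpQ_013 a c := by
  have ha := h.ha
  have ho : 0 ≤ 1 - a := by linarith [h.ho]
  have hl : 0 ≤ a - c := by linarith [h.hl]
  have hs := h.hs
  have hV := h.hV
  unfold fpQ_013
  linarith only [(mul_nonneg (mul_nonneg ho hV) (h.par (12))), (mul_nonneg (mul_nonneg ho hs) (h.par (12))), (mul_nonneg (mul_nonneg hl hV) (h.par (-12))), (mul_nonneg (mul_nonneg (mul_nonneg hs hs) hs) hs), (mul_nonneg (mul_nonneg hl hs) (h.par (12))), (h.par (-12)), (mul_nonneg (h.par (12)) (h.par (-12))), (mul_nonneg (mul_nonneg (mul_nonneg hl hV) hV) hV), (mul_nonneg (mul_nonneg (mul_nonneg ho hV) hV) hV), (mul_nonneg hV (h.par (-12))), (mul_nonneg (mul_nonneg ho hs) (h.par (-12))), (mul_nonneg (h.par (12)) (h.par (-3))), (mul_nonneg (mul_nonneg hl hV) (h.par (12))), (mul_nonneg (mul_nonneg hs hV) (h.par (-12)))]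

/-- Bernstein coefficient -/
noncomputable def fpQ_022 (a c : ℝ) : ℝ := (15658029/419430400) + (7163185941/34359738368)*c^1 + (-6084697186971/21474836480000)*c^2 + (-1729965367118439/2748779069440000)*c^3 + (-14741859141/53687091200)*a^1 + (-34699221637839/10737418240000)*a^1*c^1 + (-20572325988726393/5497558138880000)*a^1*c^2 + (1448564739168807/343597383680000)*a^2 + (279971201602323/34359738368000)*a^2*c^1 + (-40256258291059257/5497558138880000)*a^2*c^2 + (-272216670914277/171798691840000)*a^3 + (3773988665246079/171798691840000)*a^3*c^1 + (-5662841157381249/343597383680000)*a^4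

lemma pQ_022 {a c : ℝ} (h : Reg a c) : 0 ≤ fpQ_022 a c := by
  have ha := h.ha
  have ho : 0 ≤ 1 - a := by linarith [h.ho]
  have hl : 0 ≤ a - c := by linarith [h.hl]
  have hs := h.hs
  have hV := h.hV
  unfold fpQ_022
  linarith only [(mul_nonneg (mul_nonneg ho hV) (h.par (12))), (mul_nonneg ho (h.par (-12))), (mul_nonneg (mul_nonneg hl hs) (h.par (12))), (mul_nonneg (mul_nonneg (mul_nonneg hs hs) hs) hV), (mul_nonneg (mul_nonneg (mul_nonneg ho hV) hV) hV), (mul_nonneg (h.par (12)) (h.par (12))), (mul_nonneg (mul_nonneg hl hV) (h.par (-12))), (mul_nonneg (mul_nonneg (mul_nonneg hl hV) hV) hV), (mul_nonneg ho (h.par (12))), (mul_nonneg (h.par (12)) (h.par (-3))), (mul_nonneg (mul_nonneg hl hV) (h.par (12))), (mul_nonneg hV (h.par (-12))), (mul_nonneg (mul_nonneg hs hV) (h.par (-12))), (mul_nonneg (mul_nonneg ho hs) (h.par (-12)))]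

/-- Bernstein coefficient -/
noncomputable def fpQ_031 (a c : ℝ) : ℝ := (1504953/104857600) + (11112955551/429496729600)*c^1 + (-3279098097693/5368709120000)*c^2 + (-702054182171187/687194767360000)*c^3 + (-1887994737/13421772800)*a^1 + (-1635124647969/1073741824000)*a^1*c^1 + (-889501541083821/1374389534720000)*a^1*c^2 + (243321529846347/85899345920000)*a^2 + (689657683126599/171798691840000)*a^2*c^1 + (-6635237893750557/1374389534720000)*a^2*c^2 + (-44973355851369/42949672960000)*a^3 + (2488110798457143/171798691840000)*a^3*c^1 + (-37336591368693/3435973836800)*a^4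

lemma pQ_031 {a c : ℝ} (h : Reg a c) : 0 ≤ fpQ_031 a c := by
  have ha := h.ha
  have ho : 0 ≤ 1 - a := by linarith [h.ho]
  have hl : 0 ≤ a - c := by linarith [h.hl]
  have hs := h.hs
  have hV := h.hV
  unfold fpQ_031
  linarith only [(mul_nonneg (mul_nonneg (mul_nonneg hV hV) hV) hV), (mul_nonneg (mul_nonneg ho hV) (h.par (12))), (mul_nonneg (h.par (12)) (h.par (-3))), (mul_nonneg (mul_nonneg hs hV) (h.par (-6))), (mul_nonneg (mul_nonneg (mul_nonneg hs hs) hV) hV), (mul_nonneg (mul_nonneg hs hV) (h.par (12))), (mul_nonneg (mul_nonneg hs hs) (h.par (-12))), (mul_nonneg (mul_nonneg hl hV) (h.par (-12))), (mul_nonneg (mul_nonneg (mul_nonneg hl hs) hV) hV), (mul_nonneg (h.par (-3)) (h.par (-12))), (mul_nonneg (mul_nonneg hs hs) (h.par (-3))), (mul_nonneg (mul_nonneg hl hV) (h.par (12))), (mul_nonneg hV (h.par (-12))), (mul_nonneg (mul_nonneg hs hV) (h.par (-12))), (mul_nonneg (mul_nonneg (mul_nonneg hl hs) hs) hs)]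

/-- Bernstein coefficient -/
noncomputable def fpQ_040 (a c : ℝ) : ℝ := (19629/20971520) + (-4516778223/214748364800)*c^1 + (-1365963286743/5368709120000)*c^2 + (-275879473211187/687194767360000)*c^3 + (-328541913/13421772800)*a^1 + (-613256888619/2684354560000)*a^1*c^1 + (394089201568179/1374389534720000)*a^1*c^2 + (61297561573443/85899345920000)*a^2 + (56627555868567/85899345920000)*a^2*c^1 + (-1640425911385581/1374389534720000)*a^2*c^2 + (-11145304785699/42949672960000)*a^3 + (307552123151919/85899345920000)*a^3*c^1 + (-230775033295449/85899345920000)*a^4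

lemma pQ_040 {a c : ℝ} (h : Reg a c) : 0 ≤ fpQ_040 a c := by
  have ha := h.ha
  have ho : 0 ≤ 1 - a := by linarith [h.ho]
  have hl : 0 ≤ a - c := by linarith [h.hl]
  have hs := h.hs
  have hV := h.hV
  unfold fpQ_040
  linarith only [(mul_nonneg (mul_nonneg hV hV) (sq_nonneg (a - (3/50) + (-1/2)*c))), (mul_nonneg ho (h.par (-12))), (mul_nonneg (h.par (12)) (h.par (-4))), (mul_nonneg (mul_nonneg hl hs) (h.par (12))), (mul_nonneg (mul_nonneg hV hV) (sq_nonneg (a - (3/20) + 1*c))), (mul_nonneg (h.par (-12)) (h.par (-12))), (mul_nonneg (mul_nonneg ho hV) (h.par (12))), (mul_nonneg (mul_nonneg hl hV) (h.par (12))), (mul_nonneg (mul_nonneg (mul_nonneg hl hs) hV) hV), (mul_nonneg ho (h.par (12))), (mul_nonneg (mul_nonneg (mul_nonneg hs hs) hs) hs), (mul_nonneg (mul_nonneg hl hV) (h.par (-12))), (mul_nonneg (mul_nonneg (mul_nonneg hs hs) hs) hV), (mul_nonneg (mul_nonneg hs hV) (h.par (-12))), (mul_nonneg (mul_nonneg ho hs) (h.par (-12)))]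

/-- Bernstein coefficient -/
noncomputable def fpQ_103 (a c : ℝ) : ℝ := (1553661/41943040) + (510266739807/1717986918400)*c^1 + (12383476560243/21474836480000)*c^2 + (3626654052177/5368709120000)*c^3 + (-540981585/2147483648)*a^1 + (-61561258514901/21474836480000)*a^1*c^1 + (-1757261593811439/343597383680000)*a^1*c^2 + (1748166788619/671088640000)*a^2 + (343961096603643/42949672960000)*a^2*c^1 + (-951503553906273/343597383680000)*a^2*c^2 + (-463010158071/167772160000)*a^3 + (89204220402273/10737418240000)*a^3*c^1 + (-8363657886273/1342177280000)*a^4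

lemma pQ_103 {a c : ℝ} (h : Reg a c) : 0 ≤ fpQ_103 a c := by
  have ha := h.ha
  have ho : 0 ≤ 1 - a := by linarith [h.ho]
  have hl : 0 ≤ a - c := by linarith [h.hl]
  have hs := h.hs
  have hV := h.hV
  unfold fpQ_103
  linarith only [(mul_nonneg (mul_nonneg (mul_nonneg hl hV) hV) hV), (mul_nonneg (mul_nonneg ho hV) (h.par (12))), (mul_nonneg (mul_nonneg hl hV) (h.par (-12))), (mul_nonneg (mul_nonneg (mul_nonneg ho hV) hV) hV), (mul_nonneg (mul_nonneg hl hV) (h.par (12))), (mul_nonneg ho (h.par (12))), (mul_nonneg (h.par (12)) (h.par (-3))), (mul_nonneg (mul_nonneg (mul_nonneg hs hs) hs) hs), (mul_nonneg (mul_nonneg hl hs) (h.par (12))), (mul_nonneg (mul_nonneg hs hV) (h.par (-12))), (mul_nonneg (mul_nonneg ho hs) (h.par (-12))), (mul_nonneg hV (h.par (-12))), (h.par (-12)), (mul_nonneg (mul_nonneg hs hs) (h.par (12)))]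

/-- Bernstein coefficient -/
noncomputable def fpQ_112 (a c : ℝ) : ℝ := (16998093/209715200) + (438618844179/858993459200)*c^1 + (5650892759421/21474836480000)*c^2 + (-208425476187/10737418240000)*c^3 + (-34487230437/53687091200)*a^1 + (-2761488641241/429496729600)*a^1*c^1 + (-1566415318855491/171798691840000)*a^1*c^2 + (5305985161407/671088640000)*a^2 + (412995485210841/21474836480000)*a^2*c^1 + (-283362521144337/34359738368000)*a^2*c^2 + (-2195094332673/268435456000)*a^3 + (265653127818189/10737418240000)*a^3*c^1 + (-1556751978063/83886080000)*a^4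

lemma pQ_112 {a c : ℝ} (h : Reg a c) : 0 ≤ fpQ_112 a c := by
  have ha := h.ha
  have ho : 0 ≤ 1 - a := by linarith [h.ho]
  have hl : 0 ≤ a - c := by linarith [h.hl]
  have hs := h.hs
  have hV := h.hV
  unfold fpQ_112
  linarith only [(mul_nonneg (mul_nonneg hl hV) (h.par (12))), (mul_nonneg (mul_nonneg hl hV) (h.par (-12))), (mul_nonneg (mul_nonneg hl hs) (h.par (12))), (mul_nonneg (mul_nonneg (mul_nonneg ho hV) hV) hV), (mul_nonneg (mul_nonneg (mul_nonneg hl hV) hV) hV), (mul_nonneg ho (h.par (-12))), (mul_nonneg (mul_nonneg ho hV) (h.par (12))), (mul_nonneg (mul_nonneg (mul_nonneg hs hs) hs) hs), (mul_nonneg (h.par (12)) (h.par (12))), (mul_nonneg hV (h.par (-12))), (mul_nonneg (h.par (12)) (h.par (-3))), (mul_nonneg ho (h.par (12))), (mul_nonneg (mul_nonneg hs hV) (h.par (-12))), (mul_nonneg (mul_nonneg ho hs) (h.par (-12)))]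

/-- Bernstein coefficient -/
noncomputable def fpQ_121 (a c : ℝ) : ℝ := (332667/6553600) + (60427989117/429496729600)*c^1 + (-123922559259/107374182400)*c^2 + (-43100827623/21474836480)*c^3 + (-885515571/1677721600)*a^1 + (-23265686756943/5368709120000)*a^1*c^1 + (-263419604422317/85899345920000)*a^1*c^2 + (670826533779/83886080000)*a^2 + (156437384680557/10737418240000)*a^2*c^1 + (-703185959285811/85899345920000)*a^2*c^2 + (-10840094565651/1342177280000)*a^3 + (16480740473937/671088640000)*a^3*c^1 + (-24725089639197/1342177280000)*a^4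

lemma pQ_121 {a c : ℝ} (h : Reg a c) : 0 ≤ fpQ_121 a c := by
  have ha := h.ha
  have ho : 0 ≤ 1 - a := by linarith [h.ho]
  have hl : 0 ≤ a - c := by linarith [h.hl]
  have hs := h.hs
  have hV := h.hV
  unfold fpQ_121
  linarith only [(mul_nonneg (mul_nonneg (mul_nonneg hs hs) hV) hV), (mul_nonneg (mul_nonneg ho hV) (h.par (12))), (mul_nonneg (h.par (12)) (h.par (-3))), (mul_nonneg (mul_nonneg hs hV) (h.par (-6))), (mul_nonneg (mul_nonneg hs hs) (h.par (-3))), (mul_nonneg (mul_nonneg hV hV) (h.par (12))), (mul_nonneg (h.par (-4)) (h.par (-12))), (mul_nonneg (mul_nonneg hl hV) (h.par (-12))), (mul_nonneg (mul_nonneg (mul_nonneg hl hs) hV) hV), (mul_nonneg ho (h.par (-12))), (mul_nonneg (mul_nonneg (mul_nonneg hV hV) hV) hV), (mul_nonneg (mul_nonneg hs hV) (h.par (12))), (mul_nonneg hV (h.par (-12))), (mul_nonneg (h.par (12)) (h.par (-12))), (mul_nonneg (mul_nonneg (mul_nonneg hl hs) hs) hs)]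

/-- Bernstein coefficient -/
noncomputable def fpQ_130 (a c : ℝ) : ℝ := (353889/52428800) + (-15673649391/214748364800)*c^1 + (-4514609550807/5368709120000)*c^2 + (-3522983826771/2684354560000)*c^3 + (-368690373/2684354560)*a^1 + (-2067476031531/2684354560000)*a^1*c^1 + (40276044257247/42949672960000)*a^1*c^2 + (452198474361/167772160000)*a^2 + (17961296152383/5368709120000)*a^2*c^1 + (-116328427518231/42949672960000)*a^2*c^2 + (-1784352083427/671088640000)*a^3 + (21810735041769/2684354560000)*a^3*c^1 + (-4090357938231/671088640000)*a^4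

lemma pQ_130 {a c : ℝ} (h : Reg a c) : 0 ≤ fpQ_130 a c := by
  have ha := h.ha
  have ho : 0 ≤ 1 - a := by linarith [h.ho]
  have hl : 0 ≤ a - c := by linarith [h.hl]
  have hs := h.hs
  have hV := h.hV
  unfold fpQ_130
  linarith only [(mul_nonneg (mul_nonneg hV hV) (sq_nonneg (a - (3/50) + (-1/2)*c))), (mul_nonneg (h.par (12)) (h.par (-3))), (mul_nonneg (h.par (12)) (h.par (12))), (mul_nonneg (mul_nonneg hl hs) (h.par (12))), (mul_nonneg (mul_nonneg hV hV) (sq_nonneg (a - (3/20) + 1*c))), (h.par (-12)), (mul_nonneg (mul_nonneg ho hV) (h.par (12))), (mul_nonneg (mul_nonneg hl hV) (h.par (12))), (mul_nonneg (mul_nonneg (mul_nonneg hl hs) hV) hV), (mul_nonneg ho (h.par (12))), (mul_nonneg (h.par (-4)) (h.par (-12))), (mul_nonneg (mul_nonneg hl hV) (h.par (-12))), (mul_nonneg hV (h.par (-12))), (mul_nonneg (mul_nonneg hs hV) (h.par (-12))), (mul_nonneg (mul_nonneg (mul_nonneg hl hs) hs) hs)]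

/-- Bernstein coefficient -/
noncomputable def fpQ_202 (a c : ℝ) : ℝ := (3336957/83886080) + (131510979/419430400)*c^1 + (52857612531/83886080000)*c^2 + (7592697/10485760)*c^3 + (-64308087/209715200)*a^1 + (-131405894271/41943040000)*a^1*c^1 + (-459893315331/83886080000)*a^1*c^2 + (33746421717/10485760000)*a^2 + (420299092971/41943040000)*a^2*c^1 + (-62937/40960)*a^2*c^2 + (-13438279323/2621440000)*a^3 + (188811/40960)*a^3*c^1 + (-566433/163840)*a^4

lemma pQ_202 {a c : ℝ} (h : Reg a c) : 0 ≤ fpQ_202 a c := by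
  have ha := h.ha
  have ho : 0 ≤ 1 - a := by linarith [h.ho]
  have hl : 0 ≤ a - c := by linarith [h.hl]
  have hs := h.hs
  have hV := h.hV
  unfold fpQ_202
  linarith only [(mul_nonneg (h.par (12)) (h.par (-3))), (mul_nonneg (mul_nonneg ho hV) (h.par (12))), (mul_nonneg (mul_nonneg hV hV) (h.par (12))), (mul_nonneg (mul_nonneg (mul_nonneg hs hs) hs) hV), (mul_nonneg (h.par (12)) (h.par (12))), (mul_nonneg ho (h.par (12))), (mul_nonneg (mul_nonneg (mul_nonneg ho hV) hV) hV), (mul_nonneg (mul_nonneg (mul_nonneg hl hV) hV) hV), (mul_nonneg (mul_nonneg hl hs) (h.par (12))), (mul_nonneg (h.par (-6)) (h.par (-12))), (mul_nonneg (mul_nonneg hl hV) (h.par (-12))), (mul_nonneg hV (h.par (-12))), (mul_nonneg (mul_nonneg hs hV) (h.par (-12))), (mul_nonneg (mul_nonneg ho hs) (h.par (-12)))]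

/-- Bernstein coefficient -/
noncomputable def fpQ_211 (a c : ℝ) : ℝ := (5303799/104857600) + (5852061/26214400)*c^1 + (-6749788131/20971520000)*c^2 + (-384993/524288)*c^3 + (-6720327/13107200)*a^1 + (-41459835501/10485760000)*a^1*c^1 + (-91666140669/20971520000)*a^1*c^2 + (8610844023/1310720000)*a^2 + (157266442701/10485760000)*a^2*c^1 + (-62937/20480)*a^2*c^2 + (-26610455421/2621440000)*a^3 + (188811/20480)*a^3*c^1 + (-566433/81920)*a^4

lemma pQ_211 {a c : ℝ} (h : Reg a c) : 0 ≤ fpQ_211 a c := by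
  have ha := h.ha
  have ho : 0 ≤ 1 - a := by linarith [h.ho]
  have hl : 0 ≤ a - c := by linarith [h.hl]
  have hs := h.hs
  have hV := h.hV
  unfold fpQ_211
  linarith only [(mul_nonneg (mul_nonneg (mul_nonneg hs hs) hV) hV), (mul_nonneg (mul_nonneg ho hV) (h.par (12))), (mul_nonneg (h.par (12)) (h.par (-3))), (mul_nonneg (mul_nonneg hl hs) (h.par (12))), (mul_nonneg (h.par (12)) (h.par (12))), (mul_nonneg (h.par (-12)) (h.par (-12))), (mul_nonneg ho (h.par (-12))), (mul_nonneg hV (h.par (-12))), (mul_nonneg (mul_nonneg (mul_nonneg hl hs) hV) hV), (mul_nonneg ho (h.par (12))), (mul_nonneg (mul_nonneg (mul_nonneg hV hV) hV) hV), (mul_nonneg (mul_nonneg hl hV) (h.par (-12))), (mul_nonneg (mul_nonneg hl hV) (h.par (12))), (mul_nonneg (mul_nonneg hs hV) (h.par (-12))), (mul_nonneg (mul_nonneg (mul_nonneg hl hs) hs) hs)]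

/-- Bernstein coefficient -/
noncomputable def fpQ_220 (a c : ℝ) : ℝ := (1121121/104857600) + (-8880651/104857600)*c^1 + (-19414151469/20971520000)*c^2 + (-3742767/2621440)*c^3 + (-10769841/52428800)*a^1 + (-9019039527/10485760000)*a^1*c^1 + (21394428669/20971520000)*a^1*c^2 + (8782499223/2621440000)*a^2 + (52907925627/10485760000)*a^2*c^1 + (-62937/40960)*a^2*c^2 + (-6586088049/1310720000)*a^3 + (188811/40960)*a^3*c^1 + (-566433/163840)*a^4

lemma pQ_220 {a c : ℝ} (h : Reg a c) : 0 ≤ fpQ_220 a c := by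
  have ha := h.ha
  have ho : 0 ≤ 1 - a := by linarith [h.ho]
  have hl : 0 ≤ a - c := by linarith [h.hl]
  have hs := h.hs
  have hV := h.hV
  unfold fpQ_220
  linarith only [(mul_nonneg (mul_nonneg (mul_nonneg hs hs) hs) hV), (mul_nonneg ho (h.par (-12))), (mul_nonneg (h.par (12)) (h.par (-4))), (mul_nonneg (mul_nonneg hl hs) (h.par (12))), (mul_nonneg (h.par (-12)) (h.par (-12))), (mul_nonneg (mul_nonneg ho hs) (h.par (12))), (mul_nonneg (mul_nonneg hl hs) (h.par (-12))), (mul_nonneg (mul_nonneg hl hV) (h.par (12))), (mul_nonneg (mul_nonneg (mul_nonneg hl hs) hV) hV), (mul_nonneg ho (h.par (12))), (mul_nonneg (mul_nonneg hV hV) (sq_nonneg (a - (3/20) + (-1/2)*c))), (mul_nonneg (mul_nonneg hl hV) (h.par (-12))), (mul_nonneg hV (h.par (-12))), (mul_nonneg (mul_nonneg hV hV) (sq_nonneg (a - (3/50) + (-1/2)*c))), (mul_nonneg (h.par (12)) (h.par (12)))]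

/-- Bernstein coefficient -/
noncomputable def fpQ_301 (a c : ℝ) : ℝ := (1161/81920) + (45153/409600)*c^1 + (11709/51200)*c^2 + (1323/5120)*c^3 + (-24867/204800)*a^1 + (-93231/81920)*a^1*c^1 + (-10017/5120)*a^1*c^2 + (535959/409600)*a^2 + (84483/20480)*a^2*c^1 + (-1701/640)*a^3

lemma pQ_301 {a c : ℝ} (h : Reg a c) : 0 ≤ fpQ_301 a c := by
  have ha := h.ha
  have ho : 0 ≤ 1 - a := by linarith [h.ho]
  have hl : 0 ≤ a - c := by linarith [h.hl]
  have hs := h.hs
  have hV := h.hV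
  unfold fpQ_301
  linarith only [(mul_nonneg (mul_nonneg hV hV) hV), (mul_nonneg (mul_nonneg hs hs) hV), (mul_nonneg ho (h.par (12))), (mul_nonneg (mul_nonneg hl hs) hV), (mul_nonneg hl (h.par (12))), (mul_nonneg (mul_nonneg hl hl) hV), (mul_nonneg (mul_nonneg hs hs) hs), (h.par (12)), (mul_nonneg hl (h.par (-6))), (mul_nonneg hV (h.par (-12)))]

/-- Bernstein coefficient -/
noncomputable def fpQ_310 (a c : ℝ) : ℝ := (999/204800) + (-1341/40960)*c^1 + (-1737/5120)*c^2 + (-1323/2560)*c^3 + (-9477/102400)*a^1 + (-13041/40960)*a^1*c^1 + (189/512)*a^1*c^2 + (56277/40960)*a^2 + (24381/10240)*a^2*c^1 + (-1701/640)*a^3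

lemma pQ_310 {a c : ℝ} (h : Reg a c) : 0 ≤ fpQ_310 a c := by
  have ha := h.ha
  have ho : 0 ≤ 1 - a := by linarith [h.ho]
  have hl : 0 ≤ a - c := by linarith [h.hl]
  have hs := h.hs
  have hV := h.hV
  unfold fpQ_310
  linarith only [(mul_nonneg hV (sq_nonneg (a - (3/20) + (-1/2)*c))), (h.par (12)), (mul_nonneg hl (h.par (12))), (mul_nonneg ho (h.par (12))), (mul_nonneg (mul_nonneg hs hs) hV), (mul_nonneg (mul_nonneg hs hs) hs), (mul_nonneg hl (h.par (-6))), (mul_nonneg (mul_nonneg hl hs) hV), (mul_nonneg hV (sq_nonneg (a - (3/50) + (-1/2)*c))), (mul_nonneg hV (h.par (-12)))]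

/-- the function `ψ` in the variables `(a, c)` -/
noncomputable def psiP (a c : ℝ) : ℝ :=
  173/100 * a + 103/100 * ((1 - 3 * a + 2 * c) - 1) - 7/25 * ((1 - 3 * a + 2 * c) ^ 2 - 1)

/-- the numerator -/
noncomputable def numP (a c a' c' : ℝ) : ℝ :=
  (a + a' + a * a' - 1) * (1 - a * a') - 2 * a' * c - 2 * a * c' + 2 * a ^ 2 * c' + 2 * a' ^ 2 * c

/-- the master polynomial of (II) in the variables `(a, c, a', c')` -/
noncomputable def qP (a c a' c' : ℝ) : ℝ :=
  173/100 * (1 - a + numP a c a' c' *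
      (1 - (-3 * (a * a') + 2 * (c * c')) + 57/50 * (-3 * (a * a') + 2 * (c * c')) ^ 2))
    - 1/50 * a * a'
    + 103/100 * (1 - 3 * a + 2 * c) * ((1 - 3 * a' + 2 * c') * (1 + 6 * (a * a') - 8 * (c * c')) - 1)
    - 7/25 * (1 - 3 * a + 2 * c) ^ 2 * ((1 - 3 * a' + 2 * c') ^ 2 *
        (1 + 30 * (a * a') - 70 * (c * c') + 1110 * (a * a') ^ 2) - 1)
    - a' * (1/200 - 5 * psiP a c)

/-- the master polynomial of (I) -/
noncomputable def pP (a c a' c' : ℝ) : ℝ :=
  (a - 1 + a' * (1 - psiP a c)) * (1 - 3 * (a * a') + 2 * (c * c')) - numP a c a' c'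

theorem pP_nonneg {a c a0 c0 : ℝ} (h : Reg a c) (h0 : 0 ≤ a0) (h1 : a0 ≤ 1) (hc1 : c0 ≤ a0) (hc2 : 0 ≤ a0 + 2 * c0) :
    0 ≤ pP a c (9/256*a0) (-(27/4096)*c0) := by
  have hb0 : 0 ≤ 1 - a0 := by linarith
  have hb1 : 0 ≤ (a0 + 2*c0)/3 := by linarith
  have hb2 : 0 ≤ 2*(a0 - c0)/3 := by linarith
  have t1 : 0 ≤ (2*(a0 - c0)/3)^2 * fpPI_002 a c := mul_nonneg (by positivity) (pPI_002 h)
  have t2 : 0 ≤ ((a0 + 2*c0)/3)^1*(2*(a0 - c0)/3)^1 * fpPI_011 a c := mul_nonneg (by positivity) (pPI_011 h)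
  have t3 : 0 ≤ ((a0 + 2*c0)/3)^2 * fpPI_020 a c := mul_nonneg (by positivity) (pPI_020 h)
  have t4 : 0 ≤ (1 - a0)^1*(2*(a0 - c0)/3)^1 * fpPI_101 a c := mul_nonneg (by positivity) (pPI_101 h)
  have t5 : 0 ≤ (1 - a0)^1*((a0 + 2*c0)/3)^1 * fpPI_110 a c := mul_nonneg (by positivity) (pPI_110 h)
  have e : pP a c (9/256*a0) (-(27/4096)*c0) = (2*(a0 - c0)/3)^2 * fpPI_002 a c + ((a0 + 2*c0)/3)^1*(2*(a0 - c0)/3)^1 * fpPI_011 a c + ((a0 + 2*c0)/3)^2 * fpPI_020 a c + (1 - a0)^1*(2*(a0 - c0)/3)^1 * fpPI_101 a c + (1 - a0)^1*((a0 + 2*c0)/3)^1 * fpPI_110 a c := by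
    unfold pP numP psiP fpPI_002 fpPI_011 fpPI_020 fpPI_101 fpPI_110
    ring
  rw [e]
  linarith only [t1, t2, t3, t4, t5]

theorem qP_nonneg {a c a0 c0 : ℝ} (h : Reg a c) (h0 : 0 ≤ a0) (h1 : a0 ≤ 1) (hc1 : c0 ≤ a0) (hc2 : 0 ≤ a0 + 2 * c0) :
    0 ≤ qP a c (9/256*a0) (-(27/4096)*c0) := by
  have hb0 : 0 ≤ 1 - a0 := by linarith
  have hb1 : 0 ≤ (a0 + 2*c0)/3 := by linarith
  have hb2 : 0 ≤ 2*(a0 - c0)/3 := by linarith
  have t1 : 0 ≤ (2*(a0 - c0)/3)^4 * fpQ_004 a c := mul_nonneg (by positivity) (pQ_004 h)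
  have t2 : 0 ≤ ((a0 + 2*c0)/3)^1*(2*(a0 - c0)/3)^3 * fpQ_013 a c := mul_nonneg (by positivity) (pQ_013 h)
  have t3 : 0 ≤ ((a0 + 2*c0)/3)^2*(2*(a0 - c0)/3)^2 * fpQ_022 a c := mul_nonneg (by positivity) (pQ_022 h)
  have t4 : 0 ≤ ((a0 + 2*c0)/3)^3*(2*(a0 - c0)/3)^1 * fpQ_031 a c := mul_nonneg (by positivity) (pQ_031 h)
  have t5 : 0 ≤ ((a0 + 2*c0)/3)^4 * fpQ_040 a c := mul_nonneg (by positivity) (pQ_040 h)
  have t6 : 0 ≤ (1 - a0)^1*(2*(a0 - c0)/3)^3 * fpQ_103 a c := mul_nonneg (by positivity) (pQ_103 h)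
  have t7 : 0 ≤ (1 - a0)^1*((a0 + 2*c0)/3)^1*(2*(a0 - c0)/3)^2 * fpQ_112 a c := mul_nonneg (by positivity) (pQ_112 h)
  have t8 : 0 ≤ (1 - a0)^1*((a0 + 2*c0)/3)^2*(2*(a0 - c0)/3)^1 * fpQ_121 a c := mul_nonneg (by positivity) (pQ_121 h)
  have t9 : 0 ≤ (1 - a0)^1*((a0 + 2*c0)/3)^3 * fpQ_130 a c := mul_nonneg (by positivity) (pQ_130 h)
  have t10 : 0 ≤ (1 - a0)^2*(2*(a0 - c0)/3)^2 * fpQ_202 a c := mul_nonneg (by positivity) (pQ_202 h)
  have t11 : 0 ≤ (1 - a0)^2*((a0 + 2*c0)/3)^1*(2*(a0 - c0)/3)^1 * fpQ_211 a c := mul_nonneg (by positivity) (pQ_211 h)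
  have t12 : 0 ≤ (1 - a0)^2*((a0 + 2*c0)/3)^2 * fpQ_220 a c := mul_nonneg (by positivity) (pQ_220 h)
  have t13 : 0 ≤ (1 - a0)^3*(2*(a0 - c0)/3)^1 * fpQ_301 a c := mul_nonneg (by positivity) (pQ_301 h)
  have t14 : 0 ≤ (1 - a0)^3*((a0 + 2*c0)/3)^1 * fpQ_310 a c := mul_nonneg (by positivity) (pQ_310 h)
  have e : qP a c (9/256*a0) (-(27/4096)*c0) = (2*(a0 - c0)/3)^4 * fpQ_004 a c + ((a0 + 2*c0)/3)^1*(2*(a0 - c0)/3)^3 * fpQ_013 a c + ((a0 + 2*c0)/3)^2*(2*(a0 - c0)/3)^2 * fpQ_022 a c + ((a0 + 2*c0)/3)^3*(2*(a0 - c0)/3)^1 * fpQ_031 a c + ((a0 + 2*c0)/3)^4 * fpQ_040 a c + (1 - a0)^1*(2*(a0 - c0)/3)^3 * fpQ_103 a c + (1 - a0)^1*((a0 + 2*c0)/3)^1*(2*(a0 - c0)/3)^2 * fpQ_112 a c + (1 - a0)^1*((a0 + 2*c0)/3)^2*(2*(a0 - c0)/3)^1 * fpQ_121 a c + (1 - a0)^1*((a0 + 2*c0)/3)^3 * fpQ_130 a c + (1 - a0)^2*(2*(a0 - c0)/3)^2 * fpQ_202 a c + (1 - a0)^2*((a0 + 2*c0)/3)^1*(2*(a0 - c0)/3)^1 * fpQ_211 a c + (1 - a0)^2*((a0 + 2*c0)/3)^2 * fpQ_220 a c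 + (1 - a0)^3*(2*(a0 - c0)/3)^1 * fpQ_301 a c + (1 - a0)^3*((a0 + 2*c0)/3)^1 * fpQ_310 a c := by
    unfold qP numP psiP fpQ_004 fpQ_013 fpQ_022 fpQ_031 fpQ_040 fpQ_103 fpQ_112 fpQ_121 fpQ_130 fpQ_202 fpQ_211 fpQ_220 fpQ_301 fpQ_310
    ring
  rw [e]
  linarith only [t1, t2, t3, t4, t5, t6, t7, t8, t9, t10, t11, t12, t13, t14]

end Crest.Agent.Lib.Bc.LargeD
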