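import Crest.Agent.Lib.Bc.LargeD.Alg
import Crest.Agent.Lib.Bc.LargeD.Poly
/-!
# Row 163, q = 3, large degree: the two pair inequalities in coordinates

`x` in the simplex, `y = T_{-3/16} s`, `s` in the simplex. `Z_k`, `ν_k` over the six relabellings of `y`.
-/
namespace Crest.Agent.Lib.Bc.LargeD

lemma inv2_ge {u : ℝ} (hu : -1 < u) : 1 - 2 * u + 3 * u ^ 2 - 4 * u ^ 3 ≤ 1 / (1 + u) ^ 2 := by
  have h1 : 0 < 1 + u := by linarith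
  rw [le_div_iff₀ (by positivity)]
  have h2 : (1 - 2 * u + 3 * u ^ 2 - 4 * u ^ 3) * (1 + u) ^ 2 = 1 - u ^ 4 * (5 + 4 * u) := by ring
  rw [h2]
  have h3 : 0 ≤ u ^ 4 * (5 + 4 * u) := mul_nonneg (by positivity) (by linarith)
  linarith

lemma inv5_le {u : ℝ} (hu0 : -(3 / 8) ≤ u) :
    1 / (1 + u) ^ 5 ≤ 1 - 5 * u + 15 * u ^ 2 - 35 * u ^ 3 + 185 * u ^ 4 := by
  have h1 : 0 < 1 + u := by linarith
  rw [div_le_iff₀ (by positivity)]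
  obtain ⟨v, rfl⟩ : ∃ v, u = v - 3 / 8 := ⟨u + 3 / 8, by ring⟩
  have hv : 0 ≤ v := by linarith
  have h2 : (1 - 5 * (v - 3 / 8) + 15 * (v - 3 / 8) ^ 2 - 35 * (v - 3 / 8) ^ 3 + 185 * (v - 3 / 8) ^ 4)
      * (1 + (v - 3 / 8)) ^ 5 - 1
      = (v - 3 / 8) ^ 4 * (115 + 701 * (v - 3 / 8) + 1570 * (v - 3 / 8) ^ 2 + 1690 * (v - 3 / 8) ^ 3
          + 890 * (v - 3 / 8) ^ 4 + 185 * (v - 3 / 8) ^ 5) := by ring
  have h3 : 115 + 701 * (v - 3 / 8) + 1570 * (v - 3 / 8) ^ 2 + 1690 * (v - 3 / 8) ^ 3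
      + 890 * (v - 3 / 8) ^ 4 + 185 * (v - 3 / 8) ^ 5
      = 185 * v ^ 5 + (890 - 185 * 15 / 8) * v ^ 4
        + (1690 - 4 * 890 * 3 / 8 + 10 * 185 * 9 / 64) * v ^ 3
        + (1570 - 3 * 1690 * 3 / 8 + 6 * 890 * 9 / 64 - 10 * 185 * 27 / 512) * v ^ 2
        + (701 - 2 * 1570 * 3 / 8 + 3 * 1690 * 9 / 64 - 4 * 890 * 27 / 512 + 5 * 185 * 81 / 4096) * v
        + (115 - 701 * 3 / 8 + 1570 * 9 / 64 - 1690 * 27 / 512 + 890 * 81 / 4096 - 185 * 243 / 32768) := by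
    ring
  have h4 : 0 ≤ 115 + 701 * (v - 3 / 8) + 1570 * (v - 3 / 8) ^ 2 + 1690 * (v - 3 / 8) ^ 3
      + 890 * (v - 3 / 8) ^ 4 + 185 * (v - 3 / 8) ^ 5 := by
    rw [h3]
    norm_num
    positivity
  have h5 := mul_nonneg (show 0 ≤ (v - 3 / 8) ^ 4 by positivity) h4
  linarith

/-- the region contains the simplex -/
theorem reg_of_simplex {x0 x1 x2 : ℝ} (h0 : 0 ≤ x0) (h1 : 0 ≤ x1) (h2 : 0 ≤ x2) (hx : x0 + x1 + x2 = 1) :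
    Reg (aR x0 x1 x2) (cR x0 x1 x2) := by
  have e : x2 = 1 - x0 - x1 := by linarith
  refine ⟨?_, ?_, ?_, ?_, ?_, ?_⟩
  · unfold aR
    subst e
    nlinarith [sq_nonneg (x0 - x1), sq_nonneg (x0 - (1 - x0 - x1)), sq_nonneg (x1 - (1 - x0 - x1))]
  · unfold aR
    subst e
    nlinarith [mul_nonneg h0 h1, mul_nonneg h0 h2, mul_nonneg h1 h2]
  · -- `a - c = (3/2) ∑ x_i (x_j - x_k)²`
    have : aR x0 x1 x2 - cR x0 x1 x2
        = 3 / 2 * (x0 * (x1 - x2) ^ 2 + x1 * (x0 - x2) ^ 2 + x2 * (x0 - x1) ^ 2) := by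
      subst e
      unfold cR vR aR
      ring
    have h3 : 0 ≤ x0 * (x1 - x2) ^ 2 + x1 * (x0 - x2) ^ 2 + x2 * (x0 - x1) ^ 2 := by positivity
    linarith
  · -- Schur
    have : aR x0 x1 x2 + 2 * cR x0 x1 x2
        = 3 * (x0 * (x0 - x1) * (x0 - x2) + x1 * (x1 - x0) * (x1 - x2) + x2 * (x2 - x0) * (x2 - x1)) := by
      subst e
      unfold cR vR aR
      ring
    rw [this]
    have schur : 0 ≤ x0 * (x0 - x1) * (x0 - x2) + x1 * (x1 - x0) * (x1 - x2)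
        + x2 * (x2 - x0) * (x2 - x1) := by
      rcases le_total x0 x1 with h01 | h01 <;> rcases le_total x1 x2 with h12 | h12 <;>
        rcases le_total x0 x2 with h02 | h02 <;>
        nlinarith [mul_nonneg h0 (mul_nonneg (sub_nonneg.2 h01) (sub_nonneg.2 h02)),
          mul_nonneg h1 (mul_nonneg (sub_nonneg.2 h01) (sub_nonneg.2 h12)),
          mul_nonneg h2 (mul_nonneg (sub_nonneg.2 h02) (sub_nonneg.2 h12)),
          mul_nonneg h0 (mul_nonneg (sub_nonneg.2 h01) (sub_nonneg.2 h12)),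
          mul_nonneg h1 (mul_nonneg (sub_nonneg.2 h02) (sub_nonneg.2 h12)),
          mul_nonneg h2 (mul_nonneg (sub_nonneg.2 h01) (sub_nonneg.2 h02)),
          mul_nonneg h0 (mul_nonneg (sub_nonneg.2 h02) (sub_nonneg.2 h12)),
          mul_nonneg h1 (mul_nonneg (sub_nonneg.2 h01) (sub_nonneg.2 h02)),
          mul_nonneg h2 (mul_nonneg (sub_nonneg.2 h01) (sub_nonneg.2 h12)),
          mul_self_nonneg (x0 - x1), mul_self_nonneg (x1 - x2), mul_self_nonneg (x0 - x2),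
          mul_nonneg (sub_nonneg.2 h01) (mul_self_nonneg (x0 - x1)),
          mul_nonneg (sub_nonneg.2 h12) (mul_self_nonneg (x1 - x2)),
          mul_nonneg (sub_nonneg.2 h02) (mul_self_nonneg (x0 - x2))]
    linarith
  · have : 1 - 3 * aR x0 x1 x2 + 2 * cR x0 x1 x2 = vR x0 x1 x2 := by
      unfold cR; ring
    rw [this]
    unfold vR
    positivity
  · have := cube_sub_sq hx
    have h3 : 0 ≤ 27 / 4 * dR x0 x1 x2 ^ 2 := by positivity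
    linarith

/-- `T_{-3/16}` in coordinates -/
lemma aR_T {s0 s1 s2 : ℝ} (hs : s0 + s1 + s2 = 1) :
    aR (-(3 / 16) * s0 + 19 / 48) (-(3 / 16) * s1 + 19 / 48) (-(3 / 16) * s2 + 19 / 48)
      = 9 / 256 * aR s0 s1 s2 := by
  obtain rfl : s2 = 1 - s0 - s1 := by linarith
  unfold aR; ring

lemma cR_T {s0 s1 s2 : ℝ} (hs : s0 + s1 + s2 = 1) :
    cR (-(3 / 16) * s0 + 19 / 48) (-(3 / 16) * s1 + 19 / 48) (-(3 / 16) * s2 + 19 / 48)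
      = -(27 / 4096) * cR s0 s1 s2 := by
  obtain rfl : s2 = 1 - s0 - s1 := by linarith
  unfold cR vR aR; ring

/-- the range of `Z` on `Δ × T_{-3/16} Δ` -/
lemma zR_range {x0 x1 x2 s0 s1 s2 : ℝ} (h0 : 0 ≤ x0) (h1 : 0 ≤ x1) (h2 : 0 ≤ x2) (hx : x0 + x1 + x2 = 1)
    (g0 : 0 ≤ s0) (g1 : 0 ≤ s1) (g2 : 0 ≤ s2) (hs : s0 + s1 + s2 = 1) :
    5 / 8 ≤ zR x0 x1 x2 (-(3 / 16) * s0 + 19 / 48) (-(3 / 16) * s1 + 19 / 48) (-(3 / 16) * s2 + 19 / 48) := by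
  have hs0 : s0 ≤ 1 := by linarith
  have hs1 : s1 ≤ 1 := by linarith
  have hs2 : s2 ≤ 1 := by linarith
  unfold zR
  nlinarith [mul_nonneg h0 (sub_nonneg.2 hs0), mul_nonneg h1 (sub_nonneg.2 hs1),
    mul_nonneg h2 (sub_nonneg.2 hs2)]

/-- abstract rotation-class formula -/
lemma rot_div {Z0 Z1 Z2 n0 n1 n2 N : ℝ} (h0 : 0 < Z0) (h1 : 0 < Z1) (h2 : 0 < Z2)
    (h : n0 * (Z1 * Z2) + n1 * (Z2 * Z0) + n2 * (Z0 * Z1) = -3 * N) :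
    n0 / Z0 + n1 / Z1 + n2 / Z2 = (-N) * 3 / (Z0 * Z1 * Z2) := by
  field_simp
  linarith

/-- the abstract average of inverses, lower bound -/
lemma avg_inv_ge {P M D : ℝ} (hP : 0 < P) (hM : 0 < M) (hD : P + M = 2 * D) :
    1 / D ≤ (1 / P + 1 / M) / 2 := by
  have hD0 : 0 < D := by linarith
  rw [div_le_iff₀ hD0]
  have e : (1 / P + 1 / M) / 2 * D = (P + M) ^ 2 / (4 * (P * M)) := by
    have hD' : D = (P + M) / 2 := by linarith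
    rw [hD']
    field_simp
    ring
  rw [e, le_div_iff₀ (by positivity)]
  nlinarith [sq_nonneg (P - M)]

/-- the abstract average of inverses, upper bound -/
lemma avg_inv_le {P M D w2 : ℝ} (hP : 0 < P) (hM : 0 < M) (hD : P + M = 2 * D) (hw : P * M = D ^ 2 - w2)
    (hD1 : 22 / 25 ≤ D) (hw0 : 0 ≤ w2) (hw1 : w2 ≤ 1 / 1000) :
    (1 / P + 1 / M) / 2 ≤ 1 / D + 3 / 2 * w2 := by
  have hD0 : 0 < D := by linarith
  have e1 : (1 / P + 1 / M) / 2 = D / (P * M) := by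
    have hD' : D = (P + M) / 2 := by linarith
    rw [hD']
    field_simp
    ring
  have hPM : 0 < P * M := mul_pos hP hM
  have e2 : 1 / D + 3 / 2 * w2 - D / (P * M) = w2 * (3 / 2 * (D * (P * M)) - 1) / (D * (P * M)) := by
    rw [hw] at hPM ⊢
    field_simp
    ring
  have hlow : (1 : ℝ) ≤ 3 / 2 * (D * (P * M)) := by
    rw [hw]
    have h2 : (22 / 25 : ℝ) ^ 2 ≤ D ^ 2 := by nlinarith
    have h3 : (0.773 : ℝ) ≤ D ^ 2 - w2 := by norm_num at h2 ⊢; linarith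
    have h4 : (22 / 25 : ℝ) * 0.773 ≤ D * (D ^ 2 - w2) :=
      mul_le_mul hD1 h3 (by norm_num) (by linarith)
    norm_num at h4 ⊢
    linarith
  have h5 : 0 ≤ 1 / D + 3 / 2 * w2 - D / (P * M) := by
    rw [e2]
    exact div_nonneg (mul_nonneg hw0 (by linarith)) (by positivity)
  rw [e1]
  linarith

/-- inverse of `Dbar` -/
lemma inv_le_poly {t : ℝ} (ht : -(3 / 25) ≤ t) : 1 / (1 + t) ≤ 1 - t + 57 / 50 * t ^ 2 := by
  have h1 : 0 < 1 + t := by linarith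
  rw [div_le_iff₀ h1]
  have : (1 - t + 57 / 50 * t ^ 2) * (1 + t) - 1 = t ^ 2 * (7 / 50 + 57 / 50 * t) := by ring
  have h2 : 0 ≤ t ^ 2 * (7 / 50 + 57 / 50 * t) := mul_nonneg (sq_nonneg t) (by linarith)
  linarith


section main
variable {x0 x1 x2 s0 s1 s2 : ℝ}

/-- the six values of `Z` and `ν` packaged -/
theorem pair_I (h0 : 0 ≤ x0) (h1 : 0 ≤ x1) (h2 : 0 ≤ x2) (hx : x0 + x1 + x2 = 1)
    (g0 : 0 ≤ s0) (g1 : 0 ≤ s1) (g2 : 0 ≤ s2) (hs : s0 + s1 + s2 = 1)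
    {y0 y1 y2 : ℝ} (hy0 : y0 = -(3 / 16) * s0 + 19 / 48) (hy1 : y1 = -(3 / 16) * s1 + 19 / 48)
    (hy2 : y2 = -(3 / 16) * s2 + 19 / 48) :
    ((zR x0 x1 x2 y0 y1 y2 - nuR x0 x1 x2 y0 y1 y2 / zR x0 x1 x2 y0 y1 y2)
      + (zR x0 x1 x2 y1 y2 y0 - nuR x0 x1 x2 y1 y2 y0 / zR x0 x1 x2 y1 y2 y0)
      + (zR x0 x1 x2 y2 y0 y1 - nuR x0 x1 x2 y2 y0 y1 / zR x0 x1 x2 y2 y0 y1)
      + (zR x0 x1 x2 y0 y2 y1 - nuR x0 x1 x2 y0 y2 y1 / zR x0 x1 x2 y0 y2 y1)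
      + (zR x0 x1 x2 y2 y1 y0 - nuR x0 x1 x2 y2 y1 y0 / zR x0 x1 x2 y2 y1 y0)
      + (zR x0 x1 x2 y1 y0 y2 - nuR x0 x1 x2 y1 y0 y2 / zR x0 x1 x2 y1 y0 y2)) / 6
    ≤ aR x0 x1 x2 + aR y0 y1 y2 * (1 - psiP (aR x0 x1 x2) (cR x0 x1 x2)) := by
  have hy : y0 + y1 + y2 = 1 := by rw [hy0, hy1, hy2]; linarith
  have hs0 : s0 ≤ 1 := by linarith
  have hs1 : s1 ≤ 1 := by linarith
  have hs2 : s2 ≤ 1 := by linarith
  have y0p : 0 ≤ y0 := by rw [hy0]; linarith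
  have y1p : 0 ≤ y1 := by rw [hy1]; linarith
  have y2p : 0 ≤ y2 := by rw [hy2]; linarith
  have Z0p : 5 / 8 ≤ zR x0 x1 x2 y0 y1 y2 := by
    rw [hy0, hy1, hy2]; exact zR_range h0 h1 h2 hx g0 g1 g2 hs
  have Z1p : 5 / 8 ≤ zR x0 x1 x2 y1 y2 y0 := by
    rw [hy0, hy1, hy2]; exact zR_range h0 h1 h2 hx g1 g2 g0 (by linarith)
  have Z2p : 5 / 8 ≤ zR x0 x1 x2 y2 y0 y1 := by
    rw [hy0, hy1, hy2]; exact zR_range h0 h1 h2 hx g2 g0 g1 (by linarith)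
  have Z3p : 5 / 8 ≤ zR x0 x1 x2 y0 y2 y1 := by
    rw [hy0, hy1, hy2]; exact zR_range h0 h1 h2 hx g0 g2 g1 (by linarith)
  have Z4p : 5 / 8 ≤ zR x0 x1 x2 y2 y1 y0 := by
    rw [hy0, hy1, hy2]; exact zR_range h0 h1 h2 hx g2 g1 g0 (by linarith)
  have Z5p : 5 / 8 ≤ zR x0 x1 x2 y1 y0 y2 := by
    rw [hy0, hy1, hy2]; exact zR_range h0 h1 h2 hx g1 g0 g2 (by linarith)
  have r1 := nu_rot1 hx hy
  have r2 := nu_rot2 hx hy
  have pa := prod_add hx hy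
  have s1' := sum_rot1 hx hy
  have s2' := sum_rot2 hx hy
  have ea : aR y0 y1 y2 = 9 / 256 * aR s0 s1 s2 := by rw [hy0, hy1, hy2]; exact aR_T hs
  have ec : cR y0 y1 y2 = -(27 / 4096) * cR s0 s1 s2 := by rw [hy0, hy1, hy2]; exact cR_T hs
  have regx := reg_of_simplex h0 h1 h2 hx
  have regs := reg_of_simplex g0 g1 g2 hs
  have hP := pP_nonneg regx regs.ha regs.ho regs.hl regs.hs
  rw [← ea, ← ec] at hP
  generalize zR x0 x1 x2 y0 y1 y2 = Z0 at *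
  generalize zR x0 x1 x2 y1 y2 y0 = Z1 at *
  generalize zR x0 x1 x2 y2 y0 y1 = Z2 at *
  generalize zR x0 x1 x2 y0 y2 y1 = Z3 at *
  generalize zR x0 x1 x2 y2 y1 y0 = Z4 at *
  generalize zR x0 x1 x2 y1 y0 y2 = Z5 at *
  have n0p : 0 ≤ nuR x0 x1 x2 y0 y1 y2 := by unfold nuR; positivity
  have n1p : 0 ≤ nuR x0 x1 x2 y1 y2 y0 := by unfold nuR; positivity
  have n2p : 0 ≤ nuR x0 x1 x2 y2 y0 y1 := by unfold nuR; positivity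
  generalize nuR x0 x1 x2 y0 y1 y2 = n0 at *
  generalize nuR x0 x1 x2 y1 y2 y0 = n1 at *
  generalize nuR x0 x1 x2 y2 y0 y1 = n2 at *
  generalize nuR x0 x1 x2 y0 y2 y1 = n3 at *
  generalize nuR x0 x1 x2 y2 y1 y0 = n4 at *
  generalize nuR x0 x1 x2 y1 y0 y2 = n5 at *
  have Z0' : 0 < Z0 := by linarith
  have Z1' : 0 < Z1 := by linarith
  have Z2' : 0 < Z2 := by linarith
  have Z3' : 0 < Z3 := by linarith
  have Z4' : 0 < Z4 := by linarith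
  have Z5' : 0 < Z5 := by linarith
  have d1 := rot_div Z0' Z1' Z2' r1
  have d2 := rot_div Z3' Z4' Z5' r2
  set N := numR (aR x0 x1 x2) (cR x0 x1 x2) (aR y0 y1 y2) (cR y0 y1 y2) with hN
  set D := 1 - 3 * (aR x0 x1 x2 * aR y0 y1 y2) + 2 * (cR x0 x1 x2 * cR y0 y1 y2) with hD
  have Pp : 0 < Z0 * Z1 * Z2 := by positivity
  have Mp : 0 < Z3 * Z4 * Z5 := by positivity
  have Dp : 0 < D := by linarith
  have Nn : 0 ≤ -N := by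
    have h3 : 0 ≤ n0 / Z0 + n1 / Z1 + n2 / Z2 := by positivity
    rw [d1] at h3
    by_contra hneg
    push Not at hneg
    have : (-N) * 3 / (Z0 * Z1 * Z2) < 0 := div_neg_of_neg_of_pos (by linarith) Pp
    linarith
  have hav := avg_inv_ge Pp Mp pa
  have h4 : (-N) * (1 / D) ≤ (-N) * ((1 / (Z0 * Z1 * Z2) + 1 / (Z3 * Z4 * Z5)) / 2) :=
    mul_le_mul_of_nonneg_left hav Nn
  have e1 : ((Z0 - n0 / Z0) + (Z1 - n1 / Z1) + (Z2 - n2 / Z2) + (Z3 - n3 / Z3) + (Z4 - n4 / Z4) + (Z5 - n5 / Z5)) / 6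
      = 1 - (-N) * ((1 / (Z0 * Z1 * Z2) + 1 / (Z3 * Z4 * Z5)) / 2) := by
    have : ((Z0 - n0 / Z0) + (Z1 - n1 / Z1) + (Z2 - n2 / Z2) + (Z3 - n3 / Z3) + (Z4 - n4 / Z4) + (Z5 - n5 / Z5))
        = (Z0 + Z1 + Z2) + (Z3 + Z4 + Z5) - (n0 / Z0 + n1 / Z1 + n2 / Z2) - (n3 / Z3 + n4 / Z4 + n5 / Z5) := by ring
    rw [this, d1, d2, s1', s2']
    ring
  rw [e1]
  have h5 : N / D ≤ aR x0 x1 x2 - 1 + aR y0 y1 y2 * (1 - psiP (aR x0 x1 x2) (cR x0 x1 x2)) := by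
    rw [div_le_iff₀ Dp]
    have : 0 ≤ (aR x0 x1 x2 - 1 + aR y0 y1 y2 * (1 - psiP (aR x0 x1 x2) (cR x0 x1 x2))) * D - N := hP
    linarith
  have h6 : (-N) * (1 / D) = - (N / D) := by ring
  linarith


/-- `V = 1 - 3 a + 2 c` -/
lemma vR_eq (x0 x1 x2 : ℝ) : vR x0 x1 x2 = 1 - 3 * aR x0 x1 x2 + 2 * cR x0 x1 x2 := by
  unfold cR; ring

/-- the kernel of `ψ` -/
noncomputable def kernT (V V' Z n : ℝ) : ℝ :=
  173 / 100 * (Z - n / Z) + 103 / 100 * (V * V' / Z ^ 2 - Z) - 7 / 25 * (V ^ 2 * V' ^ 2 / Z ^ 5 - Z)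

/-- bounds on `-N` -/
lemma neg_num_le {a c a' c' : ℝ} (h : Reg a c) (h1 : 0 ≤ a') (h2 : a' ≤ 9 / 256) (h3 : |c'| ≤ 27 / 4096) :
    -numR a c a' c' ≤ 3 / 2 := by
  have ha := h.ha
  have ho := h.ho
  have hc1 : c ≤ 1 := by linarith [h.hl]
  have hc2 : -(1 / 2) ≤ c := by linarith [h.hs]
  have p1 : (1 - a - a' - a * a') * (1 - a * a') ≤ 1 := by
    have hB0 : 0 ≤ 1 - a * a' := by nlinarith
    have hB1 : 1 - a * a' ≤ 1 := by nlinarith [mul_nonneg ha h1]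
    have hA : 1 - a - a' - a * a' ≤ 1 := by nlinarith [mul_nonneg ha h1]
    nlinarith
  have p2 : a' * c ≤ 9 / 256 := by nlinarith
  have hc' := abs_le.1 h3
  have p3 : a * (1 - a) * (-c') ≤ 27 / 4096 := by
    have : 0 ≤ a * (1 - a) := mul_nonneg ha (by linarith)
    have : a * (1 - a) ≤ 1 := by nlinarith
    nlinarith [hc'.1, hc'.2]
  have p4 : a' ^ 2 * (-c) ≤ (9 / 256) ^ 2 := by
    have : a' ^ 2 ≤ (9 / 256) ^ 2 := by nlinarith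
    nlinarith [sq_nonneg a']
  unfold numR
  have e : -((a + a' + a * a' - 1) * (1 - a * a') - 2 * a' * c - 2 * a * c' + 2 * a ^ 2 * c' + 2 * a' ^ 2 * c)
      = (1 - a - a' - a * a') * (1 - a * a') + 2 * (a' * c) - 2 * (a * (1 - a) * (-c')) + 2 * (a' ^ 2 * (-c))
        + 0 * a := by ring
  have p3' : -(27 / 4096) ≤ a * (1 - a) * (-c') := by
    have h0 : 0 ≤ a * (1 - a) := mul_nonneg ha (by linarith)
    have h1' : a * (1 - a) ≤ 1 := by nlinarith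
    nlinarith [hc'.1, hc'.2]
  rw [e]
  norm_num at p2 p3' p4 ⊢
  linarith


/-- the two sums of inverse powers -/
lemma sums_inv {Z0 Z1 Z2 Z3 Z4 Z5 τ ρ : ℝ} (h0 : 5 / 8 ≤ Z0) (h1 : 5 / 8 ≤ Z1) (h2 : 5 / 8 ≤ Z2)
    (h3 : 5 / 8 ≤ Z3) (h4 : 5 / 8 ≤ Z4) (h5 : 5 / 8 ≤ Z5) (hs : Z0 + Z1 + Z2 + Z3 + Z4 + Z5 = 6)
    (sp2 : (Z0 - 1) ^ 2 + (Z1 - 1) ^ 2 + (Z2 - 1) ^ 2 + (Z3 - 1) ^ 2 + (Z4 - 1) ^ 2 + (Z5 - 1) ^ 2 = 12 * τ)
    (sp3 : (Z0 - 1) ^ 3 + (Z1 - 1) ^ 3 + (Z2 - 1) ^ 3 + (Z3 - 1) ^ 3 + (Z4 - 1) ^ 3 + (Z5 - 1) ^ 3 = 12 * ρ)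
    (sp4 : (Z0 - 1) ^ 4 + (Z1 - 1) ^ 4 + (Z2 - 1) ^ 4 + (Z3 - 1) ^ 4 + (Z4 - 1) ^ 4 + (Z5 - 1) ^ 4 = 36 * τ ^ 2) :
    6 + 36 * τ - 48 * ρ ≤ 1 / Z0 ^ 2 + 1 / Z1 ^ 2 + 1 / Z2 ^ 2 + 1 / Z3 ^ 2 + 1 / Z4 ^ 2 + 1 / Z5 ^ 2 ∧
    1 / Z0 ^ 5 + 1 / Z1 ^ 5 + 1 / Z2 ^ 5 + 1 / Z3 ^ 5 + 1 / Z4 ^ 5 + 1 / Z5 ^ 5
      ≤ 6 + 180 * τ - 420 * ρ + 6660 * τ ^ 2 := by
  have e2 : ∀ Z : ℝ, 5 / 8 ≤ Z → 1 - 2 * (Z - 1) + 3 * (Z - 1) ^ 2 - 4 * (Z - 1) ^ 3 ≤ 1 / Z ^ 2 := by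
    intro Z hZ
    have := inv2_ge (u := Z - 1) (by linarith)
    rwa [show 1 + (Z - 1) = Z by ring] at this
  have e5 : ∀ Z : ℝ, 5 / 8 ≤ Z → 1 / Z ^ 5 ≤ 1 - 5 * (Z - 1) + 15 * (Z - 1) ^ 2 - 35 * (Z - 1) ^ 3 + 185 * (Z - 1) ^ 4 := by
    intro Z hZ
    have := inv5_le (u := Z - 1) (by linarith)
    rwa [show 1 + (Z - 1) = Z by ring] at this
  constructor
  · have h20 := e2 Z0 h0
    have h21 := e2 Z1 h1
    have h22 := e2 Z2 h2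
    have h23 := e2 Z3 h3
    have h24 := e2 Z4 h4
    have h25 := e2 Z5 h5
    linarith only [h20, h21, h22, h23, h24, h25, hs, sp2, sp3]
  · have h20 := e5 Z0 h0
    have h21 := e5 Z1 h1
    have h22 := e5 Z2 h2
    have h23 := e5 Z3 h3
    have h24 := e5 Z4 h4
    have h25 := e5 Z5 h5
    linarith only [h20, h21, h22, h23, h24, h25, hs, sp2, sp3, sp4]

/-- the sum of the six kernels -/
lemma sum_kern {V V' Z0 Z1 Z2 Z3 Z4 Z5 n0 n1 n2 n3 n4 n5 R : ℝ}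
    (hs : Z0 + Z1 + Z2 + Z3 + Z4 + Z5 = 6)
    (hR : n0 / Z0 + n1 / Z1 + n2 / Z2 + (n3 / Z3 + n4 / Z4 + n5 / Z5) = 6 * R) :
    (kernT V V' Z0 n0 + kernT V V' Z1 n1 + kernT V V' Z2 n2 + kernT V V' Z3 n3 + kernT V V' Z4 n4
        + kernT V V' Z5 n5) / 6
      = 173 / 100 * (1 - R) + 103 / 100 * (V * V' * ((1 / Z0 ^ 2 + 1 / Z1 ^ 2 + 1 / Z2 ^ 2 + 1 / Z3 ^ 2 + 1 / Z4 ^ 2 + 1 / Z5 ^ 2) / 6) - 1)
        - 7 / 25 * (V ^ 2 * V' ^ 2 * ((1 / Z0 ^ 5 + 1 / Z1 ^ 5 + 1 / Z2 ^ 5 + 1 / Z3 ^ 5 + 1 / Z4 ^ 5 + 1 / Z5 ^ 5) / 6) - 1) := by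
  have hRe : R = (n0 / Z0 + n1 / Z1 + n2 / Z2 + (n3 / Z3 + n4 / Z4 + n5 / Z5)) / 6 := by rw [hR]; ring
  rw [hRe]
  unfold kernT
  have t2 : ∀ Z : ℝ, V * V' / Z ^ 2 = V * V' * (1 / Z ^ 2) := fun Z => by ring
  have t5 : ∀ Z : ℝ, V ^ 2 * V' ^ 2 / Z ^ 5 = V ^ 2 * V' ^ 2 * (1 / Z ^ 5) := fun Z => by ring
  simp only [t2, t5]
  generalize 1 / Z0 ^ 2 = i0
  generalize 1 / Z1 ^ 2 = i1
  generalize 1 / Z2 ^ 2 = i2
  generalize 1 / Z3 ^ 2 = i3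
  generalize 1 / Z4 ^ 2 = i4
  generalize 1 / Z5 ^ 2 = i5
  generalize 1 / Z0 ^ 5 = j0
  generalize 1 / Z1 ^ 5 = j1
  generalize 1 / Z2 ^ 5 = j2
  generalize 1 / Z3 ^ 5 = j3
  generalize 1 / Z4 ^ 5 = j4
  generalize 1 / Z5 ^ 5 = j5
  generalize n0 / Z0 = q0
  generalize n1 / Z1 = q1
  generalize n2 / Z2 = q2
  generalize n3 / Z3 = q3
  generalize n4 / Z4 = q4
  generalize n5 / Z5 = q5
  linear_combination (173 / 100 * (1 / 6) + 103 / 100 * (-1 / 6) + 7 / 25 * (1 / 6)) * hs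

/-- the bound on the mean of the inverse of the rotation products -/
lemma bound_R {a c a' c' N dx dy P M : ℝ} (regx : Reg a c) (a0n : 0 ≤ a') (a1n : a' ≤ 9 / 256)
    (cabs : |c'| ≤ 27 / 4096) (Nn : 0 ≤ -N) (hNle : -N ≤ 3 / 2)
    (Pp : 0 < P) (Mp : 0 < M) (pa : P + M = 2 * (1 - 3 * (a * a') + 2 * (c * c')))
    (pd : P - M = 27 * (dx * dy)) (cx : a ^ 3 - c ^ 2 = 27 / 4 * dx ^ 2) (cy : a' ^ 3 - c' ^ 2 = 27 / 4 * dy ^ 2) :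
    (-N) * ((1 / P + 1 / M) / 2) ≤
      (-N) * (1 - (-3 * (a * a') + 2 * (c * c')) + 57 / 50 * (-3 * (a * a') + 2 * (c * c')) ^ 2)
        + 9 * (81 / 65536) * (a * a') := by
  have ha0 := regx.ha
  have ha1 := regx.ho
  have hc1 : c ≤ 1 := by linarith only [regx.hl, ha1]
  have hc2 : -(1 / 2) ≤ c := by linarith only [regx.hs, ha1]
  have hcc : |c * c'| ≤ 27 / 4096 := by
    rw [abs_mul]
    have : |c| ≤ 1 := abs_le.2 ⟨by linarith only [hc2], hc1⟩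
    calc |c| * |c'| ≤ 1 * (27 / 4096) := mul_le_mul this cabs (abs_nonneg _) (by norm_num)
      _ = 27 / 4096 := by ring
  have hcc1 := (abs_le.1 hcc).1
  have htau : a * a' ≤ 9 / 256 := by nlinarith only [ha0, ha1, a0n, a1n]
  have htau0 : 0 ≤ a * a' := mul_nonneg ha0 a0n
  set τ := a * a' with hτ
  set ρ := c * c' with hρ
  have Dlow : 22 / 25 ≤ 1 - 3 * τ + 2 * ρ := by
    norm_num at hcc1 htau ⊢; linarith only [hcc1, htau]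
  have tlow : -(3 / 25) ≤ -3 * τ + 2 * ρ := by
    norm_num at hcc1 htau ⊢; linarith only [hcc1, htau]
  have hinvD : 1 / (1 - 3 * τ + 2 * ρ) ≤ 1 - (-3 * τ + 2 * ρ) + 57 / 50 * (-3 * τ + 2 * ρ) ^ 2 := by
    have := inv_le_poly tlow
    rwa [show 1 + (-3 * τ + 2 * ρ) = 1 - 3 * τ + 2 * ρ by ring] at this
  have hPM : P * M = (1 - 3 * τ + 2 * ρ) ^ 2 - (27 / 2 * (dx * dy)) ^ 2 := by
    have e1 : P = (1 - 3 * τ + 2 * ρ) + 27 / 2 * (dx * dy) := by linarith only [pa, pd]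
    have e2 : M = (1 - 3 * τ + 2 * ρ) - 27 / 2 * (dx * dy) := by linarith only [pa, pd]
    rw [e1, e2]; ring
  have hw2e : (27 / 2 * (dx * dy)) ^ 2 = 4 * ((a ^ 3 - c ^ 2) * (a' ^ 3 - c' ^ 2)) := by
    rw [cx, cy]; ring
  have w2n : 0 ≤ (27 / 2 * (dx * dy)) ^ 2 := by positivity
  have hk1 : 0 ≤ a ^ 3 - c ^ 2 := by rw [cx]; positivity
  have hk2 : 0 ≤ a' ^ 3 - c' ^ 2 := by rw [cy]; positivity
  have hk3 : a ^ 3 - c ^ 2 ≤ a := by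
    have h1 : a ^ 2 ≤ 1 := by nlinarith only [ha0, ha1]
    have h2 : a ^ 3 = a ^ 2 * a := by ring
    have h3 := mul_le_mul_of_nonneg_right h1 ha0
    nlinarith only [h2, h3, sq_nonneg c]
  have hk4 : a' ^ 3 - c' ^ 2 ≤ (9 / 256) ^ 2 * a' := by
    have h1 : a' ^ 2 ≤ (9 / 256) ^ 2 := by nlinarith only [a0n, a1n]
    have h3 : a' ^ 3 = a' ^ 2 * a' := by ring
    have h4 := mul_le_mul_of_nonneg_right h1 a0n
    nlinarith only [h3, h4, sq_nonneg c']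
  have w2le : (27 / 2 * (dx * dy)) ^ 2 ≤ 4 * (81 / 65536) * τ := by
    rw [hw2e]
    have h1 : (a ^ 3 - c ^ 2) * (a' ^ 3 - c' ^ 2) ≤ a * ((9 / 256) ^ 2 * a') :=
      mul_le_mul hk3 hk4 hk2 ha0
    have h2 : a * ((9 / 256) ^ 2 * a') = (9 / 256) ^ 2 * τ := by rw [hτ]; ring
    rw [h2] at h1
    norm_num at h1 ⊢
    linarith only [h1]
  have w2small : (27 / 2 * (dx * dy)) ^ 2 ≤ 1 / 1000 := by
    norm_num at htau w2le ⊢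
    linarith only [htau, w2le]
  have hav := avg_inv_le Pp Mp pa hPM Dlow w2n w2small
  set w2 := (27 / 2 * (dx * dy)) ^ 2 with hw2
  have h3 : (1 / P + 1 / M) / 2 ≤ (1 - (-3 * τ + 2 * ρ) + 57 / 50 * (-3 * τ + 2 * ρ) ^ 2) + 3 / 2 * w2 := by
    linarith only [hav, hinvD]
  have h4 := mul_le_mul_of_nonneg_left h3 Nn
  have h5 : (-N) * (3 / 2 * w2) ≤ 3 / 2 * (3 / 2 * w2) :=
    mul_le_mul_of_nonneg_right hNle (by positivity)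
  have h6 : (-N) * ((1 - (-3 * τ + 2 * ρ) + 57 / 50 * (-3 * τ + 2 * ρ) ^ 2) + 3 / 2 * w2)
      = (-N) * (1 - (-3 * τ + 2 * ρ) + 57 / 50 * (-3 * τ + 2 * ρ) ^ 2) + (-N) * (3 / 2 * w2) := by ring
  have h7 : 3 / 2 * (3 / 2 * w2) ≤ 9 * (81 / 65536) * τ := by
    norm_num at w2le ⊢
    linarith only [w2le]
  linarith only [h4, h5, h6, h7]

/-- the final arithmetic of (II) -/
lemma final_II {a c a' c' V V' N R S2 S5 : ℝ} (vx : V = 1 - 3 * a + 2 * c) (vy : V' = 1 - 3 * a' + 2 * c')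
    (Vn : 0 ≤ V) (Vn' : 0 ≤ V') (hτ : 0 ≤ a * a')
    (hR : R ≤ (-N) * (1 - (-3 * (a * a') + 2 * (c * c')) + 57 / 50 * (-3 * (a * a') + 2 * (c * c')) ^ 2)
        + 9 * (81 / 65536) * (a * a'))
    (S2' : 6 + 36 * (a * a') - 48 * (c * c') ≤ S2)
    (S5' : S5 ≤ 6 + 180 * (a * a') - 420 * (c * c') + 6660 * (a * a') ^ 2)
    (hN : N = numP a c a' c')
    (hQ : 0 ≤ qP a c a' c') :
    psiP a c + a' * (1 / 200 - 5 * psiP a c)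
      ≤ 173 / 100 * (1 - R) + 103 / 100 * (V * V' * (S2 / 6) - 1) - 7 / 25 * (V ^ 2 * V' ^ 2 * (S5 / 6) - 1) := by
  have hVV : 0 ≤ V * V' := mul_nonneg Vn Vn'
  have hVV2 : 0 ≤ V ^ 2 * V' ^ 2 := by positivity
  have b2 : V * V' * (1 + 6 * (a * a') - 8 * (c * c')) ≤ V * V' * (S2 / 6) :=
    mul_le_mul_of_nonneg_left (by linarith only [S2']) hVV
  have b5 : V ^ 2 * V' ^ 2 * (S5 / 6) ≤ V ^ 2 * V' ^ 2 * (1 + 30 * (a * a') - 70 * (c * c') + 1110 * (a * a') ^ 2) :=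
    mul_le_mul_of_nonneg_left (by linarith only [S5']) hVV2
  have hpsi : psiP a c = 173 / 100 * a + 103 / 100 * (V - 1) - 7 / 25 * (V ^ 2 - 1) := by
    unfold psiP; rw [vx]
  have hQ' : 0 ≤ 173 / 100 * (1 - a + N * (1 - (-3 * (a * a') + 2 * (c * c')) + 57 / 50 * (-3 * (a * a') + 2 * (c * c')) ^ 2))
      - 1 / 50 * a * a'
      + 103 / 100 * V * (V' * (1 + 6 * (a * a') - 8 * (c * c')) - 1)
      - 7 / 25 * V ^ 2 * (V' ^ 2 * (1 + 30 * (a * a') - 70 * (c * c') + 1110 * (a * a') ^ 2) - 1)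
      - a' * (1 / 200 - 5 * psiP a c) := by
    have := hQ
    unfold qP at this
    rw [vx, vy, hN]
    exact this
  have hw : 173 / 100 * (9 * (81 / 65536) * (a * a')) ≤ 1 / 50 * a * a' := by
    have e : 1 / 50 * a * a' = 1 / 50 * (a * a') := by ring
    rw [e]
    norm_num
    linarith only [hτ]
  generalize hP : psiP a c = p at *
  set E2 := 1 + 6 * (a * a') - 8 * (c * c') with hE2
  set E5 := 1 + 30 * (a * a') - 70 * (c * c') + 1110 * (a * a') ^ 2 with hE5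
  set W := (1 - (-3 * (a * a') + 2 * (c * c')) + 57 / 50 * (-3 * (a * a') + 2 * (c * c')) ^ 2) with hW
  have e1 : 173 / 100 * V * (0 : ℝ) = 0 := by ring
  have hR' : 173 / 100 * R ≤ 173 / 100 * ((-N) * W) + 173 / 100 * (9 * (81 / 65536) * (a * a')) := by
    linarith only [hR]
  rw [hpsi]
  rw [hpsi] at hQ'
  nlinarith only [hQ', hR', hw, b2, b5]

theorem pair_II (h0 : 0 ≤ x0) (h1 : 0 ≤ x1) (h2 : 0 ≤ x2) (hx : x0 + x1 + x2 = 1)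
    (g0 : 0 ≤ s0) (g1 : 0 ≤ s1) (g2 : 0 ≤ s2) (hs : s0 + s1 + s2 = 1)
    {y0 y1 y2 : ℝ} (hy0 : y0 = -(3 / 16) * s0 + 19 / 48) (hy1 : y1 = -(3 / 16) * s1 + 19 / 48)
    (hy2 : y2 = -(3 / 16) * s2 + 19 / 48) :
    psiP (aR x0 x1 x2) (cR x0 x1 x2)
        + aR y0 y1 y2 * (1 / 200 - 5 * psiP (aR x0 x1 x2) (cR x0 x1 x2))
    ≤ (kernT (vR x0 x1 x2) (vR y0 y1 y2) (zR x0 x1 x2 y0 y1 y2) (nuR x0 x1 x2 y0 y1 y2)
      + kernT (vR x0 x1 x2) (vR y0 y1 y2) (zR x0 x1 x2 y1 y2 y0) (nuR x0 x1 x2 y1 y2 y0)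
      + kernT (vR x0 x1 x2) (vR y0 y1 y2) (zR x0 x1 x2 y2 y0 y1) (nuR x0 x1 x2 y2 y0 y1)
      + kernT (vR x0 x1 x2) (vR y0 y1 y2) (zR x0 x1 x2 y0 y2 y1) (nuR x0 x1 x2 y0 y2 y1)
      + kernT (vR x0 x1 x2) (vR y0 y1 y2) (zR x0 x1 x2 y2 y1 y0) (nuR x0 x1 x2 y2 y1 y0)
      + kernT (vR x0 x1 x2) (vR y0 y1 y2) (zR x0 x1 x2 y1 y0 y2) (nuR x0 x1 x2 y1 y0 y2)) / 6 := by
  have hy : y0 + y1 + y2 = 1 := by rw [hy0, hy1, hy2]; linarith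
  have hs0 : s0 ≤ 1 := by linarith
  have hs1 : s1 ≤ 1 := by linarith
  have hs2 : s2 ≤ 1 := by linarith
  have y0p : 0 ≤ y0 := by rw [hy0]; linarith
  have y1p : 0 ≤ y1 := by rw [hy1]; linarith
  have y2p : 0 ≤ y2 := by rw [hy2]; linarith
  have Z0p : 5 / 8 ≤ zR x0 x1 x2 y0 y1 y2 := by
    rw [hy0, hy1, hy2]; exact zR_range h0 h1 h2 hx g0 g1 g2 hs
  have Z1p : 5 / 8 ≤ zR x0 x1 x2 y1 y2 y0 := by
    rw [hy0, hy1, hy2]; exact zR_range h0 h1 h2 hx g1 g2 g0 (by linarith)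
  have Z2p : 5 / 8 ≤ zR x0 x1 x2 y2 y0 y1 := by
    rw [hy0, hy1, hy2]; exact zR_range h0 h1 h2 hx g2 g0 g1 (by linarith)
  have Z3p : 5 / 8 ≤ zR x0 x1 x2 y0 y2 y1 := by
    rw [hy0, hy1, hy2]; exact zR_range h0 h1 h2 hx g0 g2 g1 (by linarith)
  have Z4p : 5 / 8 ≤ zR x0 x1 x2 y2 y1 y0 := by
    rw [hy0, hy1, hy2]; exact zR_range h0 h1 h2 hx g2 g1 g0 (by linarith)
  have Z5p : 5 / 8 ≤ zR x0 x1 x2 y1 y0 y2 := by
    rw [hy0, hy1, hy2]; exact zR_range h0 h1 h2 hx g1 g0 g2 (by linarith)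
  have ea : aR y0 y1 y2 = 9 / 256 * aR s0 s1 s2 := by rw [hy0, hy1, hy2]; exact aR_T hs
  have ec : cR y0 y1 y2 = -(27 / 4096) * cR s0 s1 s2 := by rw [hy0, hy1, hy2]; exact cR_T hs
  have regx := reg_of_simplex h0 h1 h2 hx
  have regs := reg_of_simplex g0 g1 g2 hs
  have hQ := qP_nonneg regx regs.ha regs.ho regs.hl regs.hs
  rw [← ea, ← ec] at hQ
  have a0n : 0 ≤ aR y0 y1 y2 := by rw [ea]; exact mul_nonneg (by norm_num) regs.ha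
  have a1n : aR y0 y1 y2 ≤ 9 / 256 := by
    rw [ea]
    have := regs.ho
    nlinarith only [this]
  have cabs : |cR y0 y1 y2| ≤ 27 / 4096 := by
    rw [ec, abs_le]
    have c1 := regs.hl
    have c2 := regs.hs
    have c3 := regs.ho
    constructor <;> linarith only [c1, c2, c3]
  have hNle := neg_num_le regx a0n a1n cabs
  have Z0' : 0 < zR x0 x1 x2 y0 y1 y2 := by linarith only [Z0p]
  have Z1' : 0 < zR x0 x1 x2 y1 y2 y0 := by linarith only [Z1p]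
  have Z2' : 0 < zR x0 x1 x2 y2 y0 y1 := by linarith only [Z2p]
  have Z3' : 0 < zR x0 x1 x2 y0 y2 y1 := by linarith only [Z3p]
  have Z4' : 0 < zR x0 x1 x2 y2 y1 y0 := by linarith only [Z4p]
  have Z5' : 0 < zR x0 x1 x2 y1 y0 y2 := by linarith only [Z5p]
  have d1 := rot_div Z0' Z1' Z2' (nu_rot1 hx hy)
  have d2 := rot_div Z3' Z4' Z5' (nu_rot2 hx hy)
  have Pp := mul_pos (mul_pos Z0' Z1') Z2'
  have Mp := mul_pos (mul_pos Z3' Z4') Z5'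
  have Nn : 0 ≤ -numR (aR x0 x1 x2) (cR x0 x1 x2) (aR y0 y1 y2) (cR y0 y1 y2) := by
    have n0p : 0 ≤ nuR x0 x1 x2 y0 y1 y2 := by unfold nuR; positivity
    have n1p : 0 ≤ nuR x0 x1 x2 y1 y2 y0 := by unfold nuR; positivity
    have n2p : 0 ≤ nuR x0 x1 x2 y2 y0 y1 := by unfold nuR; positivity
    have h3 : 0 ≤ nuR x0 x1 x2 y0 y1 y2 / zR x0 x1 x2 y0 y1 y2 + nuR x0 x1 x2 y1 y2 y0 / zR x0 x1 x2 y1 y2 y0
        + nuR x0 x1 x2 y2 y0 y1 / zR x0 x1 x2 y2 y0 y1 := by positivity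
    rw [d1] at h3
    by_contra hneg
    push Not at hneg
    have := div_neg_of_neg_of_pos (mul_neg_of_neg_of_pos hneg (show (0:ℝ) < 3 by norm_num)) Pp
    linarith only [this, h3]
  have hbR := bound_R regx a0n a1n cabs Nn hNle Pp Mp (prod_add hx hy) (prod_sub hx hy)
    (cube_sub_sq hx) (cube_sub_sq hy)
  have hS := sums_inv Z0p Z1p Z2p Z3p Z4p Z5p
    (by linarith only [sum_rot1 hx hy, sum_rot2 hx hy]) (pow2_sum hx hy) (pow3_sum hx hy) (pow4_sum hx hy)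
  have hR : nuR x0 x1 x2 y0 y1 y2 / zR x0 x1 x2 y0 y1 y2 + nuR x0 x1 x2 y1 y2 y0 / zR x0 x1 x2 y1 y2 y0
        + nuR x0 x1 x2 y2 y0 y1 / zR x0 x1 x2 y2 y0 y1
        + (nuR x0 x1 x2 y0 y2 y1 / zR x0 x1 x2 y0 y2 y1 + nuR x0 x1 x2 y2 y1 y0 / zR x0 x1 x2 y2 y1 y0
        + nuR x0 x1 x2 y1 y0 y2 / zR x0 x1 x2 y1 y0 y2)
      = 6 * ((-numR (aR x0 x1 x2) (cR x0 x1 x2) (aR y0 y1 y2) (cR y0 y1 y2))
          * ((1 / (zR x0 x1 x2 y0 y1 y2 * zR x0 x1 x2 y1 y2 y0 * zR x0 x1 x2 y2 y0 y1)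
            + 1 / (zR x0 x1 x2 y0 y2 y1 * zR x0 x1 x2 y2 y1 y0 * zR x0 x1 x2 y1 y0 y2)) / 2)) := by
    rw [d1, d2]; ring
  rw [sum_kern (by linarith only [sum_rot1 hx hy, sum_rot2 hx hy]) hR]
  refine final_II (vR_eq x0 x1 x2) (vR_eq y0 y1 y2) (by unfold vR; positivity) (by unfold vR; positivity)
    (mul_nonneg regx.ha a0n) hbR hS.1 hS.2 rfl hQ

end main

end Crest.Agent.Lib.Bc.LargeD
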